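import Mathlib
import Crest.Prelude.Def_QuadricHamiltonian

set_option autoImplicit false

namespace Crest.Agent.R205

open Crest.GeometryTopology.Quadric

abbrev V := Fin 5 → ℂ

/-- turn an explicit additive homogeneous map into a continuous real-linear map -/
noncomputable def mkL (f : V → V) (h1 : ∀ u w, f (u + w) = f u + f w)
    (h2 : ∀ (c : ℝ) u, f (c • u) = c • f u) : V →L[ℝ] V :=
  LinearMap.toContinuousLinearMap { toFun := f, map_add' := h1, map_smul' := h2 }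

noncomputable def P : V →L[ℝ] V := mkL (fun z => ![z 0, z 1, z 2, z 3, 0])
  (by intros; ext i; fin_cases i <;> simp) (by intros; ext i; fin_cases i <;> simp)
noncomputable def Q : V →L[ℝ] V := mkL (fun z => ![0, 0, 0, 0, z 4])
  (by intros; ext i; fin_cases i <;> simp) (by intros; ext i; fin_cases i <;> simp)
noncomputable def L1 : V →L[ℝ] V := mkL (fun z => ![-z 1, z 0, -z 3, z 2, 0])
  (by intros; ext i; fin_cases i <;> simp [add_comm]) (by intros; ext i; fin_cases i <;> simp)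
noncomputable def L2 : V →L[ℝ] V := mkL (fun z => ![-z 2, z 3, z 0, -z 1, 0])
  (by intros; ext i; fin_cases i <;> simp [add_comm]) (by intros; ext i; fin_cases i <;> simp)
noncomputable def R1 : V →L[ℝ] V := mkL (fun z => ![-z 1, z 0, z 3, -z 2, 0])
  (by intros; ext i; fin_cases i <;> simp [add_comm]) (by intros; ext i; fin_cases i <;> simp)
noncomputable def R2 : V →L[ℝ] V := mkL (fun z => ![-z 2, -z 3, z 0, z 1, 0])
  (by intros; ext i; fin_cases i <;> simp [add_comm]) (by intros; ext i; fin_cases i <;> simp)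

lemma P_apply (z : V) : P z = ![z 0, z 1, z 2, z 3, 0] := rfl
lemma Q_apply (z : V) : Q z = ![0, 0, 0, 0, z 4] := rfl
lemma L1_apply (z : V) : L1 z = ![-z 1, z 0, -z 3, z 2, 0] := rfl
lemma L2_apply (z : V) : L2 z = ![-z 2, z 3, z 0, -z 1, 0] := rfl
lemma R1_apply (z : V) : R1 z = ![-z 1, z 0, z 3, -z 2, 0] := rfl
lemma R2_apply (z : V) : R2 z = ![-z 2, -z 3, z 0, z 1, 0] := rfl

/-- `c + s J` on the first four coordinates, the identity on the last. -/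
noncomputable def U (J : V →L[ℝ] V) (c s : ℝ) (z : V) : V := c • P z + s • J z + Q z

lemma U_L1 (c s : ℝ) (z : V) : U L1 c s z =
    ![c * z 0 - s * z 1, c * z 1 + s * z 0, c * z 2 - s * z 3, c * z 3 + s * z 2, z 4] := by
  ext i; fin_cases i <;> simp [U, P_apply, Q_apply, L1_apply] <;> ring
lemma U_L2 (c s : ℝ) (z : V) : U L2 c s z =
    ![c * z 0 - s * z 2, c * z 1 + s * z 3, c * z 2 + s * z 0, c * z 3 - s * z 1, z 4] := by
  ext i; fin_cases i <;> simp [U, P_apply, Q_apply, L2_apply] <;> ring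
lemma U_R1 (c s : ℝ) (z : V) : U R1 c s z =
    ![c * z 0 - s * z 1, c * z 1 + s * z 0, c * z 2 + s * z 3, c * z 3 - s * z 2, z 4] := by
  ext i; fin_cases i <;> simp [U, P_apply, Q_apply, R1_apply] <;> ring
lemma U_R2 (c s : ℝ) (z : V) : U R2 c s z =
    ![c * z 0 - s * z 2, c * z 1 - s * z 3, c * z 2 + s * z 0, c * z 3 + s * z 1, z 4] := by
  ext i; fin_cases i <;> simp [U, P_apply, Q_apply, R2_apply] <;> ring

/-- `Im (conj z_i * z_j)` -/
def m (i j : Fin 5) (z : V) : ℝ := (z i).re * (z j).im - (z i).im * (z j).re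

def x1 (z : V) : ℝ := 2 * (m 0 1 z + m 2 3 z)
def x2 (z : V) : ℝ := 2 * (m 0 2 z + m 3 1 z)
def x3 (z : V) : ℝ := 2 * (m 0 3 z + m 1 2 z)
def y1 (z : V) : ℝ := 2 * (m 0 1 z - m 2 3 z)
def y2 (z : V) : ℝ := 2 * (m 0 2 z - m 3 1 z)
def y3 (z : V) : ℝ := 2 * (m 0 3 z - m 1 2 z)

/-- real inner product of the first four coordinates -/
def ip (u w : V) : ℝ := (u 0).re * (w 0).re + (u 0).im * (w 0).im + (u 1).re * (w 1).re +
  (u 1).im * (w 1).im + (u 2).re * (w 2).re + (u 2).im * (w 2).im + (u 3).re * (w 3).re +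
  (u 3).im * (w 3).im

lemma mem_cone_iff (z : V) : z ∈ unitCone ↔
    (ip z z + ((z 4).re ^ 2 + (z 4).im ^ 2) = 1 ∧
      (z 0) ^ 2 + (z 1) ^ 2 + (z 2) ^ 2 + (z 3) ^ 2 + (z 4) ^ 2 = 0) := by
  simp only [unitCone, herm, Set.mem_ofPred_eq, Fin.sum_univ_five, ip]
  apply and_congr_left
  intro _
  rw [Complex.ext_iff]
  simp
  constructor
  · rintro ⟨h, _⟩; linarith
  · intro h; constructor
    · linarith
    · ring

section rot
variable {c s : ℝ} (h : c ^ 2 + s ^ 2 = 1) (z : V)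
include h

lemma hC : (c : ℂ) ^ 2 + (s : ℂ) ^ 2 = 1 := by exact_mod_cast h

lemma U_L1_cone (hz : z ∈ unitCone) : U L1 c s z ∈ unitCone := by
  rw [mem_cone_iff] at hz ⊢
  obtain ⟨h1, h2⟩ := hz
  rw [U_L1]
  simp [ip] at h1 ⊢
  constructor
  · linear_combination h1 + ((z 0).re ^ 2 + (z 0).im ^ 2 + (z 1).re ^ 2 + (z 1).im ^ 2 +
      (z 2).re ^ 2 + (z 2).im ^ 2 + (z 3).re ^ 2 + (z 3).im ^ 2) * h
  · linear_combination h2 + ((z 0) ^ 2 + (z 1) ^ 2 + (z 2) ^ 2 + (z 3) ^ 2) * hC h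

lemma U_L2_cone (hz : z ∈ unitCone) : U L2 c s z ∈ unitCone := by
  rw [mem_cone_iff] at hz ⊢
  obtain ⟨h1, h2⟩ := hz
  rw [U_L2]
  simp [ip] at h1 ⊢
  constructor
  · linear_combination h1 + ((z 0).re ^ 2 + (z 0).im ^ 2 + (z 1).re ^ 2 + (z 1).im ^ 2 +
      (z 2).re ^ 2 + (z 2).im ^ 2 + (z 3).re ^ 2 + (z 3).im ^ 2) * h
  · linear_combination h2 + ((z 0) ^ 2 + (z 1) ^ 2 + (z 2) ^ 2 + (z 3) ^ 2) * hC h

lemma U_R1_cone (hz : z ∈ unitCone) : U R1 c s z ∈ unitCone := by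
  rw [mem_cone_iff] at hz ⊢
  obtain ⟨h1, h2⟩ := hz
  rw [U_R1]
  simp [ip] at h1 ⊢
  constructor
  · linear_combination h1 + ((z 0).re ^ 2 + (z 0).im ^ 2 + (z 1).re ^ 2 + (z 1).im ^ 2 +
      (z 2).re ^ 2 + (z 2).im ^ 2 + (z 3).re ^ 2 + (z 3).im ^ 2) * h
  · linear_combination h2 + ((z 0) ^ 2 + (z 1) ^ 2 + (z 2) ^ 2 + (z 3) ^ 2) * hC h

lemma U_R2_cone (hz : z ∈ unitCone) : U R2 c s z ∈ unitCone := by
  rw [mem_cone_iff] at hz ⊢
  obtain ⟨h1, h2⟩ := hz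
  rw [U_R2]
  simp [ip] at h1 ⊢
  constructor
  · linear_combination h1 + ((z 0).re ^ 2 + (z 0).im ^ 2 + (z 1).re ^ 2 + (z 1).im ^ 2 +
      (z 2).re ^ 2 + (z 2).im ^ 2 + (z 3).re ^ 2 + (z 3).im ^ 2) * h
  · linear_combination h2 + ((z 0) ^ 2 + (z 1) ^ 2 + (z 2) ^ 2 + (z 3) ^ 2) * hC h

-- action of L1
lemma x1_L1 : x1 (U L1 c s z) = x1 z := by
  have : x1 (U L1 c s z) = (c ^ 2 + s ^ 2) * x1 z := by rw [U_L1]; simp [x1, m]; ring
  rw [this, h, one_mul]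
lemma y1_L1 : y1 (U L1 c s z) = y1 z := by
  have : y1 (U L1 c s z) = (c ^ 2 + s ^ 2) * y1 z := by rw [U_L1]; simp [y1, m]; ring
  rw [this, h, one_mul]
lemma y2_L1 : y2 (U L1 c s z) = y2 z := by
  have : y2 (U L1 c s z) = (c ^ 2 + s ^ 2) * y2 z := by rw [U_L1]; simp [y2, m]; ring
  rw [this, h, one_mul]
lemma y3_L1 : y3 (U L1 c s z) = y3 z := by
  have : y3 (U L1 c s z) = (c ^ 2 + s ^ 2) * y3 z := by rw [U_L1]; simp [y3, m]; ring
  rw [this, h, one_mul]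
-- action of L2
lemma x2_L2 : x2 (U L2 c s z) = x2 z := by
  have : x2 (U L2 c s z) = (c ^ 2 + s ^ 2) * x2 z := by rw [U_L2]; simp [x2, m]; ring
  rw [this, h, one_mul]
lemma y1_L2 : y1 (U L2 c s z) = y1 z := by
  have : y1 (U L2 c s z) = (c ^ 2 + s ^ 2) * y1 z := by rw [U_L2]; simp [y1, m]; ring
  rw [this, h, one_mul]
lemma y2_L2 : y2 (U L2 c s z) = y2 z := by
  have : y2 (U L2 c s z) = (c ^ 2 + s ^ 2) * y2 z := by rw [U_L2]; simp [y2, m]; ring
  rw [this, h, one_mul]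
lemma y3_L2 : y3 (U L2 c s z) = y3 z := by
  have : y3 (U L2 c s z) = (c ^ 2 + s ^ 2) * y3 z := by rw [U_L2]; simp [y3, m]; ring
  rw [this, h, one_mul]
-- action of R1
lemma y1_R1 : y1 (U R1 c s z) = y1 z := by
  have : y1 (U R1 c s z) = (c ^ 2 + s ^ 2) * y1 z := by rw [U_R1]; simp [y1, m]; ring
  rw [this, h, one_mul]
lemma x1_R1 : x1 (U R1 c s z) = x1 z := by
  have : x1 (U R1 c s z) = (c ^ 2 + s ^ 2) * x1 z := by rw [U_R1]; simp [x1, m]; ring
  rw [this, h, one_mul]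
lemma x2_R1 : x2 (U R1 c s z) = x2 z := by
  have : x2 (U R1 c s z) = (c ^ 2 + s ^ 2) * x2 z := by rw [U_R1]; simp [x2, m]; ring
  rw [this, h, one_mul]
lemma x3_R1 : x3 (U R1 c s z) = x3 z := by
  have : x3 (U R1 c s z) = (c ^ 2 + s ^ 2) * x3 z := by rw [U_R1]; simp [x3, m]; ring
  rw [this, h, one_mul]
-- action of R2
lemma y2_R2 : y2 (U R2 c s z) = y2 z := by
  have : y2 (U R2 c s z) = (c ^ 2 + s ^ 2) * y2 z := by rw [U_R2]; simp [y2, m]; ring
  rw [this, h, one_mul]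
lemma x1_R2 : x1 (U R2 c s z) = x1 z := by
  have : x1 (U R2 c s z) = (c ^ 2 + s ^ 2) * x1 z := by rw [U_R2]; simp [x1, m]; ring
  rw [this, h, one_mul]
lemma x2_R2 : x2 (U R2 c s z) = x2 z := by
  have : x2 (U R2 c s z) = (c ^ 2 + s ^ 2) * x2 z := by rw [U_R2]; simp [x2, m]; ring
  rw [this, h, one_mul]
lemma x3_R2 : x3 (U R2 c s z) = x3 z := by
  have : x3 (U R2 c s z) = (c ^ 2 + s ^ 2) * x3 z := by rw [U_R2]; simp [x3, m]; ring
  rw [this, h, one_mul]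

end rot

section rot2
variable (c s : ℝ) (z : V)

lemma x2_L1 : x2 (U L1 c s z) = (c ^ 2 - s ^ 2) * x2 z - 2 * s * c * x3 z := by
  rw [U_L1]; simp [x2, x3, m]; ring
lemma x3_L1 : x3 (U L1 c s z) = (c ^ 2 - s ^ 2) * x3 z + 2 * s * c * x2 z := by
  rw [U_L1]; simp [x2, x3, m]; ring
lemma x1_L2 : x1 (U L2 c s z) = (c ^ 2 - s ^ 2) * x1 z + 2 * s * c * x3 z := by
  rw [U_L2]; simp [x1, x3, m]; ring
lemma x3_L2 : x3 (U L2 c s z) = (c ^ 2 - s ^ 2) * x3 z - 2 * s * c * x1 z := by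
  rw [U_L2]; simp [x1, x3, m]; ring
lemma y2_R1 : y2 (U R1 c s z) = (c ^ 2 - s ^ 2) * y2 z + 2 * s * c * y3 z := by
  rw [U_R1]; simp [y2, y3, m]; ring
lemma y3_R1 : y3 (U R1 c s z) = (c ^ 2 - s ^ 2) * y3 z - 2 * s * c * y2 z := by
  rw [U_R1]; simp [y2, y3, m]; ring
lemma y1_R2 : y1 (U R2 c s z) = (c ^ 2 - s ^ 2) * y1 z - 2 * s * c * y3 z := by
  rw [U_R2]; simp [y1, y3, m]; ring
lemma y3_R2 : y3 (U R2 c s z) = (c ^ 2 - s ^ 2) * y3 z + 2 * s * c * y1 z := by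
  rw [U_R2]; simp [y1, y3, m]; ring

lemma U_L1_four : U L1 c s z 4 = z 4 := by rw [U_L1]; simp
lemma U_L2_four : U L2 c s z 4 = z 4 := by rw [U_L2]; simp
lemma U_R1_four : U R1 c s z 4 = z 4 := by rw [U_R1]; simp
lemma U_R2_four : U R2 c s z 4 = z 4 := by rw [U_R2]; simp

lemma U_L1_smul (a : ℂ) : U L1 c s (a • z) = a • U L1 c s z := by
  rw [U_L1, U_L1]; ext i; fin_cases i <;> simp <;> ring
lemma U_L2_smul (a : ℂ) : U L2 c s (a • z) = a • U L2 c s z := by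
  rw [U_L2, U_L2]; ext i; fin_cases i <;> simp <;> ring
lemma U_R1_smul (a : ℂ) : U R1 c s (a • z) = a • U R1 c s z := by
  rw [U_R1, U_R1]; ext i; fin_cases i <;> simp <;> ring
lemma U_R2_smul (a : ℂ) : U R2 c s (a • z) = a • U R2 c s z := by
  rw [U_R2, U_R2]; ext i; fin_cases i <;> simp <;> ring

lemma U_one (J : V →L[ℝ] V) : U J 1 0 z = z := by
  ext i; fin_cases i <;> simp [U, P_apply, Q_apply]

end rot2

lemma m_smul (i j : Fin 5) (a : ℂ) (ha : ‖a‖ = 1) (z : V) : m i j (a • z) = m i j z := by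
  have h : a.re ^ 2 + a.im ^ 2 = 1 := by
    have := Complex.sq_norm a
    rw [ha, Complex.normSq_apply] at this
    linarith
  have : m i j (a • z) = (a.re ^ 2 + a.im ^ 2) * m i j z := by simp [m]; ring
  rw [this, h, one_mul]

lemma x1_smul (a : ℂ) (ha : ‖a‖ = 1) (z : V) : x1 (a • z) = x1 z := by simp [x1, m_smul _ _ a ha]
lemma x2_smul (a : ℂ) (ha : ‖a‖ = 1) (z : V) : x2 (a • z) = x2 z := by simp [x2, m_smul _ _ a ha]
lemma x3_smul (a : ℂ) (ha : ‖a‖ = 1) (z : V) : x3 (a • z) = x3 z := by simp [x3, m_smul _ _ a ha]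
lemma y1_smul (a : ℂ) (ha : ‖a‖ = 1) (z : V) : y1 (a • z) = y1 z := by simp [y1, m_smul _ _ a ha]
lemma y2_smul (a : ℂ) (ha : ‖a‖ = 1) (z : V) : y2 (a • z) = y2 z := by simp [y2, m_smul _ _ a ha]
lemma y3_smul (a : ℂ) (ha : ‖a‖ = 1) (z : V) : y3 (a • z) = y3 z := by simp [y3, m_smul _ _ a ha]

lemma norm_one_of_cone {z : V} {a : ℂ} (hz : z ∈ unitCone) (haz : a • z ∈ unitCone) : ‖a‖ = 1 := by
  rw [mem_cone_iff] at hz haz
  have h1 := hz.1
  have h2 := haz.1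
  have : ip (a • z) (a • z) + (((a • z) 4).re ^ 2 + ((a • z) 4).im ^ 2) =
      (a.re ^ 2 + a.im ^ 2) * (ip z z + ((z 4).re ^ 2 + (z 4).im ^ 2)) := by
    simp [ip]; ring
  rw [this, h1, mul_one] at h2
  have h3 : ‖a‖ ^ 2 = 1 := by
    rw [Complex.sq_norm, Complex.normSq_apply]; linarith
  exact (pow_eq_one_iff_of_nonneg (norm_nonneg a) (by norm_num)).1 h3

/-- bounds for the moments on the cone -/
lemma mom_bd {z : V} (hz : z ∈ unitCone) :
    |x1 z| ≤ 1 ∧ |x2 z| ≤ 1 ∧ |y1 z| ≤ 1 ∧ |y2 z| ≤ 1 := by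
  rw [mem_cone_iff] at hz
  have h1 := hz.1
  simp only [ip] at h1
  have key : ∀ i j : Fin 5, |2 * m i j z| ≤
      (z i).re ^ 2 + (z i).im ^ 2 + (z j).re ^ 2 + (z j).im ^ 2 := by
    intro i j
    rw [abs_le]; unfold m
    constructor
    · nlinarith [sq_nonneg ((z i).re + (z j).im), sq_nonneg ((z i).im - (z j).re)]
    · nlinarith [sq_nonneg ((z i).re - (z j).im), sq_nonneg ((z i).im + (z j).re)]
  have k01 := abs_le.1 (key 0 1)
  have k23 := abs_le.1 (key 2 3)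
  have k02 := abs_le.1 (key 0 2)
  have k31 := abs_le.1 (key 3 1)
  have p4 : 0 ≤ (z 4).re ^ 2 + (z 4).im ^ 2 := by positivity
  unfold x1 x2 y1 y2
  refine ⟨?_, ?_, ?_, ?_⟩ <;> rw [abs_le] <;> constructor <;> nlinarith

/-- real form of the cone equations when the last coordinate vanishes -/
lemma cone_real {z : V} (hz : z ∈ unitCone) (h4 : z 4 = 0) :
    (z 0).re ^ 2 + (z 1).re ^ 2 + (z 2).re ^ 2 + (z 3).re ^ 2 = 1 / 2 ∧
    (z 0).im ^ 2 + (z 1).im ^ 2 + (z 2).im ^ 2 + (z 3).im ^ 2 = 1 / 2 ∧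
    (z 0).re * (z 0).im + (z 1).re * (z 1).im + (z 2).re * (z 2).im + (z 3).re * (z 3).im = 0 := by
  rw [mem_cone_iff] at hz
  obtain ⟨h1, h2⟩ := hz
  rw [h4] at h1 h2
  have h3 := congrArg Complex.re h2
  have h5 := congrArg Complex.im h2
  simp [ip, pow_two] at h1 h3 h5
  refine ⟨?_, ?_, ?_⟩ <;> nlinarith

lemma mom_sphere {z : V} (hz : z ∈ unitCone) (h4 : z 4 = 0) :
    x1 z ^ 2 + x2 z ^ 2 + x3 z ^ 2 = 1 ∧ y1 z ^ 2 + y2 z ^ 2 + y3 z ^ 2 = 1 := by
  obtain ⟨h1, h2, h3⟩ := cone_real hz h4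
  set A := (z 0).re ^ 2 + (z 1).re ^ 2 + (z 2).re ^ 2 + (z 3).re ^ 2
  set B := (z 0).im ^ 2 + (z 1).im ^ 2 + (z 2).im ^ 2 + (z 3).im ^ 2
  set C := (z 0).re * (z 0).im + (z 1).re * (z 1).im + (z 2).re * (z 2).im + (z 3).re * (z 3).im
  have e1 : x1 z ^ 2 + x2 z ^ 2 + x3 z ^ 2 = 4 * (A * B - C ^ 2) := by
    simp only [x1, x2, x3, m, A, B, C]; ring
  have e2 : y1 z ^ 2 + y2 z ^ 2 + y3 z ^ 2 = 4 * (A * B - C ^ 2) := by
    simp only [y1, y2, y3, m, A, B, C]; ring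
  rw [e1, e2, h1, h2, h3]; norm_num

lemma proj_entry {z : V} (hz : z ∈ unitCone) (h4 : z 4 = 0) (i j : Fin 5) :
    (z i).re * (z j).re + (z i).im * (z j).im =
      -2 * (m i 0 z * m 0 j z + m i 1 z * m 1 j z + m i 2 z * m 2 j z + m i 3 z * m 3 j z) := by
  obtain ⟨h1, h2, h3⟩ := cone_real hz h4
  unfold m
  linear_combination (-2 * (z i).im * (z j).im) * h1 + (-2 * (z i).re * (z j).re) * h2 +
    (2 * ((z i).re * (z j).im + (z i).im * (z j).re)) * h3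

/-- two cone points with vanishing last coordinate and the same moments span the same line -/
lemma line_of_mom {z w : V} (hz : z ∈ unitCone) (hz4 : z 4 = 0) (hw : w ∈ unitCone) (hw4 : w 4 = 0)
    (a1 : x1 z = x1 w) (a2 : x2 z = x2 w) (a3 : x3 z = x3 w)
    (b1 : y1 z = y1 w) (b2 : y2 z = y2 w) (b3 : y3 z = y3 w) : ∃ c : ℂ, w = c • z := by
  have anti : ∀ (u : V) i j, m i j u = - m j i u := by intro u i j; unfold m; ring
  have diag : ∀ (u : V) i, m i i u = 0 := by intro u i; unfold m; ring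
  have four : ∀ (u : V), u 4 = 0 → ∀ i, m i 4 u = 0 := by
    intro u hu i; unfold m; rw [hu]; simp
  unfold x1 at a1; unfold x2 at a2; unfold x3 at a3
  unfold y1 at b1; unfold y2 at b2; unfold y3 at b3
  have m01 : m 0 1 z = m 0 1 w := by linarith
  have m23 : m 2 3 z = m 2 3 w := by linarith
  have m02 : m 0 2 z = m 0 2 w := by linarith
  have m31 : m 3 1 z = m 3 1 w := by linarith
  have m03 : m 0 3 z = m 0 3 w := by linarith
  have m12 : m 1 2 z = m 1 2 w := by linarith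
  have hm : ∀ i j, m i j z = m i j w := by
    intro i j
    have := anti z 1 0; have := anti z 3 2; have := anti z 2 0; have := anti z 1 3
    have := anti z 3 0; have := anti z 2 1
    have := anti w 1 0; have := anti w 3 2; have := anti w 2 0; have := anti w 1 3
    have := anti w 3 0; have := anti w 2 1
    have := anti z i j; have := anti w i j
    have := four z hz4 i; have := four z hz4 j; have := four w hw4 i; have := four w hw4 j
    fin_cases i <;> fin_cases j <;> simp only [diag] <;> simp at * <;> linarith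
  have hH : ∀ i j, w i * (starRingEnd ℂ) (w j) = z i * (starRingEnd ℂ) (z j) := by
    intro i j
    have e1 := proj_entry hz hz4 i j
    have e2 := proj_entry hw hw4 i j
    simp only [hm] at e1
    have e3 := hm i j
    unfold m at e3
    apply Complex.ext
    · simp; linarith
    · simp; linarith
  refine ⟨herm z w, ?_⟩
  have hw1 : herm w w = 1 := hw.1
  ext i
  simp only [herm, Fin.sum_univ_five] at hw1 ⊢
  simp only [Pi.smul_apply, smul_eq_mul]
  linear_combination (-(w i)) * hw1 + (w 0) * hH i 0 + (w 1) * hH i 1 + (w 2) * hH i 2 +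
    (w 3) * hH i 3 + (w 4) * hH i 4

/-- every pair of non-antipodal unit vectors is a moment value -/
lemma exists_mom {a1 a2 a3 b1 b2 b3 : ℝ} (ha : a1 ^ 2 + a2 ^ 2 + a3 ^ 2 = 1)
    (hb : b1 ^ 2 + b2 ^ 2 + b3 ^ 2 = 1) (hab : 0 < 1 + (a1 * b1 + a2 * b2 + a3 * b3)) :
    ∃ z ∈ unitCone, z 4 = 0 ∧ x1 z = a1 ∧ x2 z = a2 ∧ x3 z = a3 ∧
      y1 z = b1 ∧ y2 z = b2 ∧ y3 z = b3 := by
  set D := 1 + (a1 * b1 + a2 * b2 + a3 * b3) with hD
  obtain ⟨k, hk⟩ : ∃ k : ℝ, 4 * D * k ^ 2 = 1 := by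
    refine ⟨1 / Real.sqrt (4 * D), ?_⟩
    rw [div_pow, Real.sq_sqrt (by positivity)]
    field_simp
  refine ⟨![⟨0, -k * D⟩, ⟨k * (a1 + b1), k * (a2 * b3 - a3 * b2)⟩,
    ⟨k * (a2 + b2), k * (a3 * b1 - a1 * b3)⟩, ⟨k * (a3 + b3), k * (a1 * b2 - a2 * b1)⟩, 0], ?_,
    by simp, ?_, ?_, ?_, ?_, ?_, ?_⟩
  · rw [mem_cone_iff]
    constructor
    · simp [ip]
      rw [hD] at hk ⊢
      linear_combination hk + k ^ 2 * (1 + b1 ^ 2 + b2 ^ 2 + b3 ^ 2) * ha + 2 * k ^ 2 * hb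
    · apply Complex.ext
      · simp [pow_two]
        rw [hD]
        linear_combination k ^ 2 * (1 - (b1 ^ 2 + b2 ^ 2 + b3 ^ 2)) * ha
      · simp [pow_two]
        ring
  · simp [x1, m]; rw [hD] at hk ⊢
    linear_combination a1 * hk - 2 * k ^ 2 * b1 * ha + 2 * k ^ 2 * a1 * hb
  · simp [x2, m]; rw [hD] at hk ⊢
    linear_combination a2 * hk - 2 * k ^ 2 * b2 * ha + 2 * k ^ 2 * a2 * hb
  · simp [x3, m]; rw [hD] at hk ⊢
    linear_combination a3 * hk - 2 * k ^ 2 * b3 * ha + 2 * k ^ 2 * a3 * hb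
  · simp [y1, m]; rw [hD] at hk ⊢
    linear_combination b1 * hk + 2 * k ^ 2 * b1 * ha - 2 * k ^ 2 * a1 * hb
  · simp [y2, m]; rw [hD] at hk ⊢
    linear_combination b2 * hk + 2 * k ^ 2 * b2 * ha - 2 * k ^ 2 * a2 * hb
  · simp [y3, m]; rw [hD] at hk ⊢
    linear_combination b3 * hk + 2 * k ^ 2 * b3 * ha - 2 * k ^ 2 * a3 * hb

/-- small rotations have positive real inner product -/
lemma ip_B (c s c' s' : ℝ) (z : V) :
    (c * c' - |s * s'|) * ip z z ≤ ip z (U L2 c s (U R1 c' s' z)) := by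
  have e : ip z (U L2 c s (U R1 c' s' z)) = c * c' * ip z z + s * s' *
      (2 * (-((z 0).re * (z 3).re + (z 0).im * (z 3).im) -
        ((z 1).re * (z 2).re + (z 1).im * (z 2).im))) := by
    rw [U_L2, U_R1]; simp [ip]; ring
  set W := (2 * (-((z 0).re * (z 3).re + (z 0).im * (z 3).im) -
        ((z 1).re * (z 2).re + (z 1).im * (z 2).im))) with hW
  have hb : |W| ≤ ip z z := by
    rw [abs_le, hW]; unfold ip
    constructor
    · nlinarith [sq_nonneg ((z 0).re - (z 3).re), sq_nonneg ((z 0).im - (z 3).im),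
        sq_nonneg ((z 1).re - (z 2).re), sq_nonneg ((z 1).im - (z 2).im)]
    · nlinarith [sq_nonneg ((z 0).re + (z 3).re), sq_nonneg ((z 0).im + (z 3).im),
        sq_nonneg ((z 1).re + (z 2).re), sq_nonneg ((z 1).im + (z 2).im)]
  have : -(|s * s'| * ip z z) ≤ s * s' * W := by
    have h1 := neg_abs_le (s * s' * W)
    rw [abs_mul] at h1
    nlinarith [abs_nonneg (s * s')]
  rw [e]; linarith

lemma ip_A (c s c' s' : ℝ) (z : V) :
    ip z (U L1 c s (U R2 c' s' z)) ≤ (c * c' + |s * s'|) * ip z z := by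
  have e : ip z (U L1 c s (U R2 c' s' z)) = c * c' * ip z z + s * s' *
      (2 * (((z 0).re * (z 3).re + (z 0).im * (z 3).im) -
        ((z 1).re * (z 2).re + (z 1).im * (z 2).im))) := by
    rw [U_L1, U_R2]; simp [ip]; ring
  set W := (2 * (((z 0).re * (z 3).re + (z 0).im * (z 3).im) -
        ((z 1).re * (z 2).re + (z 1).im * (z 2).im))) with hW
  have hb : |W| ≤ ip z z := by
    rw [abs_le, hW]; unfold ip
    constructor
    · nlinarith [sq_nonneg ((z 0).re + (z 3).re), sq_nonneg ((z 0).im + (z 3).im),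
        sq_nonneg ((z 1).re - (z 2).re), sq_nonneg ((z 1).im - (z 2).im)]
    · nlinarith [sq_nonneg ((z 0).re - (z 3).re), sq_nonneg ((z 0).im - (z 3).im),
        sq_nonneg ((z 1).re + (z 2).re), sq_nonneg ((z 1).im + (z 2).im)]
  have : s * s' * W ≤ |s * s'| * ip z z := by
    have h1 := le_abs_self (s * s' * W)
    rw [abs_mul] at h1
    nlinarith [abs_nonneg (s * s')]
  rw [e]; linarith

end Crest.Agent.R205
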