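import Mathlib

set_option autoImplicit false

namespace Crest.Agent.R205

open Real

/-- The slope function `T s = tan (s / 10)`. -/
noncomputable def T (s : ℝ) : ℝ := Real.tan (s / 10)

lemma T_neg (s : ℝ) : T (-s) = -T s := by
  unfold T; rw [neg_div, Real.tan_neg]

lemma T_zero : T 0 = 0 := by simp [T]

lemma cos_lower {u : ℝ} (h : |u| ≤ 2) : 49 / 50 ≤ Real.cos (u / 10) := by
  have h1 := Real.one_sub_sq_div_two_le_cos (x := u / 10)
  have h2 : u ^ 2 ≤ 4 := by
    have := abs_le.1 h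
    nlinarith [this.1, this.2]
  nlinarith

lemma T_slope {u v : ℝ} (hu : 0 ≤ u) (huv : u ≤ v) (hv : v ≤ 2) :
    (99 / 1000) * (v - u) ≤ T v - T u ∧ T v - T u ≤ (105 / 1000) * (v - u) := by
  have cu : 49 / 50 ≤ Real.cos (u / 10) := cos_lower (by rw [abs_le]; constructor <;> linarith)
  have cv : 49 / 50 ≤ Real.cos (v / 10) := cos_lower (by rw [abs_le]; constructor <;> linarith)
  have cu1 := Real.cos_le_one (u / 10)
  have cv1 := Real.cos_le_one (v / 10)
  have cu0 : 0 < Real.cos (u / 10) := by linarith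
  have cv0 : 0 < Real.cos (v / 10) := by linarith
  have key : T v - T u = Real.sin ((v - u) / 10) / (Real.cos (u / 10) * Real.cos (v / 10)) := by
    unfold T
    rw [Real.tan_eq_sin_div_cos, Real.tan_eq_sin_div_cos, sub_div v u, Real.sin_sub]
    field_simp
  have hd : 0 ≤ (v - u) / 10 := by linarith
  have s1 : Real.sin ((v - u) / 10) ≤ (v - u) / 10 := Real.sin_le hd
  have s2 : (99 / 1000) * (v - u) ≤ Real.sin ((v - u) / 10) := by
    rcases eq_or_lt_of_le hd with h | h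
    · have : v - u = 0 := by linarith
      rw [this]; simp
    · have := Real.sin_gt_sub_cube h
      have h3 : ((v - u) / 10) ^ 2 ≤ 1 / 25 := by nlinarith
      nlinarith
  have cc : (49 / 50) * (49 / 50) ≤ Real.cos (u / 10) * Real.cos (v / 10) := by nlinarith
  have cc1 : Real.cos (u / 10) * Real.cos (v / 10) ≤ 1 := by nlinarith
  have cc0 : 0 < Real.cos (u / 10) * Real.cos (v / 10) := by positivity
  rw [key]
  constructor
  · rw [le_div_iff₀ cc0]; nlinarith
  · rw [div_le_iff₀ cc0]; nlinarith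

lemma T_bd {v : ℝ} (hv0 : 0 ≤ v) (hv : v ≤ 2) :
    (99 / 1000) * v ≤ T v ∧ T v ≤ (105 / 1000) * v := by
  have := T_slope le_rfl hv0 hv
  simpa [T_zero] using this

lemma T_continuousOn : ContinuousOn T (Set.Icc (-2) 2) := by
  unfold T
  intro s hs
  have : Real.cos (s / 10) ≠ 0 := by
    have := cos_lower (u := s) (abs_le.2 ⟨hs.1, hs.2⟩)
    linarith
  exact ((Real.continuousAt_tan.2 this).comp (f := fun s : ℝ => s / 10)
    (by fun_prop)).continuousWithinAt

/-- no solutions with positive first coordinates -/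
lemma no_pos {a b p q : ℝ} (ha : 0 < a) (hb : 0 < b) (ha1 : a < 1) (hb1 : b < 1)
    (hp : 0 < p) (hq : 0 < q)
    (e1 : a * T (1 - b) = p * T q) (e2 : b * T (1 - a) = q * T p)
    (n1 : a ^ 2 + p ^ 2 + (p * T q) ^ 2 = 1) (n2 : b ^ 2 + q ^ 2 + (q * T p) ^ 2 = 1) : False := by
  have hp1 : p ≤ 1 := by nlinarith [sq_nonneg (p * T q), sq_nonneg a]
  have hq1 : q ≤ 1 := by nlinarith [sq_nonneg (q * T p), sq_nonneg b]
  obtain ⟨tq1, tq2⟩ := T_bd hq.le (by linarith)
  obtain ⟨tp1, tp2⟩ := T_bd hp.le (by linarith)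
  obtain ⟨ta1, ta2⟩ := T_bd (v := 1 - a) (by linarith) (by linarith)
  obtain ⟨tb1, tb2⟩ := T_bd (v := 1 - b) (by linarith) (by linarith)
  have i1 : 99 * (p * q) ≤ 105 * (a * (1 - b)) := by nlinarith
  have i2 : 99 * (p * q) ≤ 105 * (b * (1 - a)) := by nlinarith
  have tq3 : T q ^ 2 ≤ 1 / 50 := by nlinarith
  have tp3 : T p ^ 2 ≤ 1 / 50 := by nlinarith
  have j1 : 1 - a ^ 2 ≤ (51 / 50) * p ^ 2 := by nlinarith [sq_nonneg p]
  have j2 : 1 - b ^ 2 ≤ (51 / 50) * q ^ 2 := by nlinarith [sq_nonneg q]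
  have hA : 0 < 1 - a := by linarith
  have hB : 0 < 1 - b := by linarith
  have k1 : 2 * a * (1 - a) ≤ (51 / 50) * p ^ 2 := by nlinarith
  have k2 : 2 * b * (1 - b) ≤ (51 / 50) * q ^ 2 := by nlinarith
  have hpq : 0 < p * q := by positivity
  have l1 : (99 * (p * q)) * (99 * (p * q)) ≤ (105 * (a * (1 - b))) * (105 * (b * (1 - a))) :=
    mul_le_mul i1 i2 (by positivity) (by positivity)
  have l2 : (2 * a * (1 - a)) * (2 * b * (1 - b)) ≤ ((51 / 50) * p ^ 2) * ((51 / 50) * q ^ 2) :=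
    mul_le_mul k1 k2 (by positivity) (by positivity)
  nlinarith [mul_pos hpq hpq]

lemma sym_aux {a b p q : ℝ} (ha : 0 < a) (hb : 0 < b)
    (hp : 0 < p) (hpq : p < q)
    (e1 : a * T (1 + b) = p * T q) (e2 : b * T (1 + a) = q * T p)
    (n1 : a ^ 2 + p ^ 2 + (p * T q) ^ 2 = 1) (n2 : b ^ 2 + q ^ 2 + (q * T p) ^ 2 = 1) : False := by
  have hq : 0 < q := by linarith
  have hq1 : q ≤ 1 := by nlinarith [sq_nonneg (q * T p), sq_nonneg b]
  have ha1 : a ≤ 1 := by nlinarith [sq_nonneg (p * T q), sq_nonneg p]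
  have hb1 : b ≤ 1 := by nlinarith [sq_nonneg (q * T p), sq_nonneg q]
  obtain ⟨tq1, tq2⟩ := T_bd hq.le (by linarith)
  obtain ⟨tp1, tp2⟩ := T_bd hp.le (by linarith)
  obtain ⟨s1, s2⟩ := T_slope hp.le hpq.le (by linarith)
  set d := p * (q - p) with hd
  have hd0 : 0 < d := mul_pos hp (by linarith)
  -- R = p T q - q T p ≤ (6/1000) d
  have hR : p * T q - q * T p ≤ (6 / 1000) * d := by
    have : p * T q - q * T p = p * (T q - T p) - (q - p) * T p := by ring
    rw [this, hd]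
    nlinarith
  have hS : p * T q + q * T p ≤ 1 := by nlinarith
  have hS0 : 0 ≤ p * T q + q * T p := by nlinarith
  have hsq : (p * T q) ^ 2 - (q * T p) ^ 2 ≤ (6 / 1000) * d := by
    have : (p * T q) ^ 2 - (q * T p) ^ 2 = (p * T q - q * T p) * (p * T q + q * T p) := by ring
    rw [this]
    nlinarith
  have hab2 : d ≤ a ^ 2 - b ^ 2 := by
    have : 2 * d ≤ q ^ 2 - p ^ 2 := by rw [hd]; nlinarith
    nlinarith
  have hab : b < a := by
    by_contra h
    push Not at h
    nlinarith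
  have hab3 : d ≤ 2 * (a - b) := by nlinarith
  obtain ⟨u1, u2⟩ := T_slope (u := 1 + b) (v := 1 + a) (by linarith) (by linarith) (by linarith)
  obtain ⟨w1, w2⟩ := T_bd (v := 1 + b) (by linarith) (by linarith)
  have hL : (93 / 1000) * (a - b) ≤ a * T (1 + b) - b * T (1 + a) := by
    have : a * T (1 + b) - b * T (1 + a) = (a - b) * T (1 + b) - b * (T (1 + a) - T (1 + b)) := by
      ring
    rw [this]
    have h1 : (a - b) * ((99 / 1000) * (1 + b)) ≤ (a - b) * T (1 + b) :=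
      mul_le_mul_of_nonneg_left w1 (by linarith)
    have h2 : b * (T (1 + a) - T (1 + b)) ≤ b * ((105 / 1000) * (a - b)) :=
      mul_le_mul_of_nonneg_left (by linarith) hb.le
    nlinarith
  nlinarith

lemma sym_unique {a p a' p' : ℝ} (ha : 0 < a) (hp : 0 < p) (ha' : 0 < a') (hpp : p < p')
    (e : a * T (1 + a) = p * T p) (n : a ^ 2 + p ^ 2 + (p * T p) ^ 2 = 1)
    (e' : a' * T (1 + a') = p' * T p') (n' : a' ^ 2 + p' ^ 2 + (p' * T p') ^ 2 = 1) : False := by
  have hp' : 0 < p' := by linarith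
  have hq1 : p' ≤ 1 := by nlinarith [sq_nonneg (p' * T p'), sq_nonneg a']
  have ha1 : a ≤ 1 := by nlinarith [sq_nonneg (p * T p), sq_nonneg p]
  obtain ⟨tp1, tp2⟩ := T_bd hp.le (by linarith)
  obtain ⟨s1, s2⟩ := T_slope hp.le hpp.le (by linarith)
  have h1 : p * T p < p' * T p' := by nlinarith
  have h0 : 0 < p * T p := by nlinarith
  have h2 : a' < a := by
    by_contra h
    push Not at h
    nlinarith
  obtain ⟨u1, u2⟩ := T_slope (u := 1 + a') (v := 1 + a) (by linarith) (by linarith) (by linarith)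
  obtain ⟨w1, w2⟩ := T_bd (v := 1 + a') (by linarith) (by linarith)
  nlinarith

lemma sym_exists : ∃ a p : ℝ, 0 < a ∧ 0 < p ∧ a * T (1 + a) = p * T p ∧
    a ^ 2 + p ^ 2 + (p * T p) ^ 2 = 1 := by
  let A : ℝ → ℝ := fun p => Real.sqrt (1 - p ^ 2 - (p * T p) ^ 2)
  have hA1 : ∀ p, A p ≤ 1 := fun p => by
    apply Real.sqrt_le_one.2
    nlinarith [sq_nonneg p, sq_nonneg (p * T p)]
  have hA0 : ∀ p, 0 ≤ A p := fun p => Real.sqrt_nonneg _
  have hT : ContinuousOn T (Set.Icc 0 1) :=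
    T_continuousOn.mono (Set.Icc_subset_Icc (by norm_num) (by norm_num))
  have hAc : ContinuousOn A (Set.Icc 0 1) := by
    apply ContinuousOn.sqrt
    exact (continuousOn_const.sub (continuousOn_id.pow 2)).sub ((continuousOn_id.mul hT).pow 2)
  have hc : ContinuousOn (fun p => A p * T (1 + A p) - p * T p) (Set.Icc 0 1) := by
    refine (hAc.mul ?_).sub (continuousOn_id.mul hT)
    refine T_continuousOn.comp (continuousOn_const.add hAc) ?_
    intro p _
    constructor <;> linarith [hA0 p, hA1 p]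
  have h0 : A 0 = 1 := by simp [A]
  have h1 : A 1 = 0 := by
    apply Real.sqrt_eq_zero_of_nonpos
    nlinarith [sq_nonneg (1 * T 1)]
  have t1 := (T_bd (v := 1) (by norm_num) (by norm_num)).1
  have t2 := (T_bd (v := 2) (by norm_num) (by norm_num)).1
  obtain ⟨p, hp, hz⟩ : (0 : ℝ) ∈ (fun p => A p * T (1 + A p) - p * T p) '' Set.Icc 0 1 := by
    apply intermediate_value_Icc' (by norm_num) hc
    simp only [h0, h1]
    constructor
    · linarith
    · norm_num; linarith
  simp only at hz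
  have hp0 : 0 < p := by
    rcases eq_or_lt_of_le hp.1 with h | h
    · rw [← h, h0] at hz; norm_num at hz; linarith
    · exact h
  have tp := (T_bd hp0.le (by linarith [hp.2])).1
  have hpos : 0 < A p * T (1 + A p) := by nlinarith
  have hApos : 0 < A p := by
    rcases eq_or_lt_of_le (hA0 p) with h | h
    · rw [← h] at hpos; simp at hpos
    · exact h
  refine ⟨A p, p, hApos, hp0, by linarith, ?_⟩
  have : 0 < 1 - p ^ 2 - (p * T p) ^ 2 := Real.sqrt_pos.1 hApos
  have : A p ^ 2 = 1 - p ^ 2 - (p * T p) ^ 2 := Real.sq_sqrt this.le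
  linarith

lemma T_pos {v : ℝ} (hv0 : 0 < v) (hv : v ≤ 2) : 0 < T v := by
  have := (T_bd hv0.le hv).1
  nlinarith

lemma neg_case {a p a₀ p₀ b q : ℝ} (ha₀ : 0 < a₀) (hp₀ : 0 < p₀)
    (e : a₀ * T (1 + a₀) = p₀ * T p₀) (n : a₀ ^ 2 + p₀ ^ 2 + (p₀ * T p₀) ^ 2 = 1)
    (ha : 0 < a) (hb : 0 < b) (hp : 0 < p) (hq : 0 < q)
    (e1 : a * T (1 + b) = p * T q) (e2 : b * T (1 + a) = q * T p)
    (n1 : a ^ 2 + p ^ 2 + (p * T q) ^ 2 = 1) (n2 : b ^ 2 + q ^ 2 + (q * T p) ^ 2 = 1) :
    a = a₀ ∧ b = a₀ ∧ p = p₀ ∧ q = p₀ := by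
  have hpq : p = q := by
    rcases lt_trichotomy p q with h | h | h
    · exact (sym_aux ha hb hp h e1 e2 n1 n2).elim
    · exact h
    · exact (sym_aux hb ha hq h e2 e1 n2 n1).elim
  subst hpq
  have hab : a = b := by
    have : a ^ 2 = b ^ 2 := by linarith
    exact (pow_left_inj₀ ha.le hb.le (by norm_num)).1 this
  subst hab
  have hpp : p = p₀ := by
    rcases lt_trichotomy p p₀ with h | h | h
    · exact (sym_unique ha hp ha₀ h e1 n1 e n).elim
    · exact h
    · exact (sym_unique ha₀ hp₀ ha h e n e1 n1).elim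
  subst hpp
  have haa : a = a₀ := by
    have : a ^ 2 = a₀ ^ 2 := by linarith
    exact (pow_left_inj₀ ha.le ha₀.le (by norm_num)).1 this
  exact ⟨haa, haa, rfl, rfl⟩

/-- Classification of the non-degenerate solutions. -/
lemma classify {a p x1 x2 x3 y1 y2 y3 : ℝ} (ha : 0 < a) (hp : 0 < p)
    (e : a * T (1 + a) = p * T p) (n : a ^ 2 + p ^ 2 + (p * T p) ^ 2 = 1)
    (nx : x1 ^ 2 + x2 ^ 2 + x3 ^ 2 = 1) (ny : y1 ^ 2 + y2 ^ 2 + y3 ^ 2 = 1)
    (hx : x1 ≠ 1) (hy : y1 ≠ 1)
    (e1 : x3 = x1 * T (1 - y1)) (e2 : x3 = x2 * T y2)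
    (e3 : y3 = y1 * T (1 - x1)) (e4 : y3 = y2 * T x2) :
    x1 = -a ∧ y1 = -a ∧ x3 = -(p * T p) ∧ y3 = -(p * T p) ∧
      ((x2 = p ∧ y2 = -p) ∨ (x2 = -p ∧ y2 = p)) := by
  have hx1 : x1 < 1 := lt_of_le_of_ne (by nlinarith [sq_nonneg x2, sq_nonneg x3]) hx
  have hy1 : y1 < 1 := lt_of_le_of_ne (by nlinarith [sq_nonneg y2, sq_nonneg y3]) hy
  have hx1' : -1 ≤ x1 := by nlinarith [sq_nonneg x2, sq_nonneg x3]
  have hy1' : -1 ≤ y1 := by nlinarith [sq_nonneg y2, sq_nonneg y3]
  have hx2 : x2 ≤ 1 := by nlinarith [sq_nonneg x1, sq_nonneg x3]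
  have hy2 : y2 ≤ 1 := by nlinarith [sq_nonneg y1, sq_nonneg y3]
  have hx2' : -1 ≤ x2 := by nlinarith [sq_nonneg x1, sq_nonneg x3]
  have hy2' : -1 ≤ y2 := by nlinarith [sq_nonneg y1, sq_nonneg y3]
  have tx : 0 < T (1 - x1) := T_pos (by linarith) (by linarith)
  have ty : 0 < T (1 - y1) := T_pos (by linarith) (by linarith)
  -- x2, y2 nonzero
  have hne : x2 ≠ 0 ∧ y2 ≠ 0 := by
    by_contra h
    have h0 : x3 = 0 ∧ y3 = 0 := by
      by_cases h1 : x2 = 0
      · constructor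
        · rw [e2, h1]; simp
        · rw [e4, h1, T_zero]; simp
      · have h2 : y2 = 0 := by
          by_contra h2; exact h ⟨h1, h2⟩
        constructor
        · rw [e2, h2, T_zero]; simp
        · rw [e4, h2]; simp
    have hx0 : x1 = 0 := by
      have : x1 * T (1 - y1) = 0 := by rw [← e1]; exact h0.1
      rcases mul_eq_zero.1 this with h | h
      · exact h
      · linarith
    have hy0 : y1 = 0 := by
      have : y1 * T (1 - x1) = 0 := by rw [← e3]; exact h0.2
      rcases mul_eq_zero.1 this with h | h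
      · exact h
      · linarith
    apply h
    constructor
    · intro h; rw [hx0, h, h0.1] at nx; norm_num at nx
    · intro h; rw [hy0, h, h0.2] at ny; norm_num at ny
  rcases lt_or_gt_of_ne hne.1 with h1 | h1 <;> rcases lt_or_gt_of_ne hne.2 with h2 | h2
  · -- both negative
    exfalso
    have t1 : 0 < T (-x2) := T_pos (by linarith) (by linarith)
    have t2 : 0 < T (-y2) := T_pos (by linarith) (by linarith)
    have f2 : x3 = (-x2) * T (-y2) := by rw [T_neg, e2]; ring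
    have f4 : y3 = (-y2) * T (-x2) := by rw [T_neg, e4]; ring
    have p1 : 0 < x3 := by rw [f2]; exact mul_pos (by linarith) t2
    have p2 : 0 < y3 := by rw [f4]; exact mul_pos (by linarith) t1
    have q1 : 0 < x1 := by rw [e1] at p1; exact (pos_iff_pos_of_mul_pos p1).2 ty
    have q2 : 0 < y1 := by rw [e3] at p2; exact (pos_iff_pos_of_mul_pos p2).2 tx
    exact no_pos (p := -x2) (q := -y2) q1 q2 hx1 hy1 (by linarith) (by linarith)
      (by rw [← e1, ← f2]) (by rw [← e3, ← f4]) (by rw [← f2]; linarith) (by rw [← f4]; linarith)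
  · -- x2 < 0 < y2
    have t1 : 0 < T (-x2) := T_pos (by linarith) (by linarith)
    have t2 : 0 < T y2 := T_pos (by linarith) (by linarith)
    have f2 : -x3 = (-x2) * T y2 := by rw [e2]; ring
    have f4 : -y3 = y2 * T (-x2) := by rw [T_neg, e4]; ring
    have p1 : 0 < -x3 := by rw [f2]; exact mul_pos (by linarith) t2
    have p2 : 0 < -y3 := by rw [f4]; exact mul_pos (by linarith) t1
    have g1 : -x3 = (-x1) * T (1 + -y1) := by rw [e1, ← sub_eq_add_neg]; ring
    have g3 : -y3 = (-y1) * T (1 + -x1) := by rw [e3, ← sub_eq_add_neg]; ring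
    have q1 : 0 < -x1 := by
      rw [g1, ← sub_eq_add_neg] at p1; exact (pos_iff_pos_of_mul_pos p1).2 ty
    have q2 : 0 < -y1 := by
      rw [g3, ← sub_eq_add_neg] at p2; exact (pos_iff_pos_of_mul_pos p2).2 tx
    obtain ⟨r1, r2, r3, r4⟩ := neg_case (a := -x1) (b := -y1) (p := -x2) (q := y2) ha hp e n q1 q2
      (by linarith) h2 (by rw [← g1, ← f2]) (by rw [← g3, ← f4]) (by rw [← f2]; linarith)
      (by rw [← f4]; linarith)
    rw [r3, r4] at f2 f4
    exact ⟨by linarith, by linarith, by linarith, by linarith, Or.inr ⟨by linarith, r4⟩⟩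
  · -- y2 < 0 < x2
    have t1 : 0 < T x2 := T_pos (by linarith) (by linarith)
    have t2 : 0 < T (-y2) := T_pos (by linarith) (by linarith)
    have f2 : -x3 = x2 * T (-y2) := by rw [T_neg, e2]; ring
    have f4 : -y3 = (-y2) * T x2 := by rw [e4]; ring
    have p1 : 0 < -x3 := by rw [f2]; exact mul_pos (by linarith) t2
    have p2 : 0 < -y3 := by rw [f4]; exact mul_pos (by linarith) t1
    have g1 : -x3 = (-x1) * T (1 + -y1) := by rw [e1, ← sub_eq_add_neg]; ring
    have g3 : -y3 = (-y1) * T (1 + -x1) := by rw [e3, ← sub_eq_add_neg]; ring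
    have q1 : 0 < -x1 := by
      rw [g1, ← sub_eq_add_neg] at p1; exact (pos_iff_pos_of_mul_pos p1).2 ty
    have q2 : 0 < -y1 := by
      rw [g3, ← sub_eq_add_neg] at p2; exact (pos_iff_pos_of_mul_pos p2).2 tx
    obtain ⟨r1, r2, r3, r4⟩ := neg_case (a := -x1) (b := -y1) (p := x2) (q := -y2) ha hp e n q1 q2
      h1 (by linarith) (by rw [← g1, ← f2]) (by rw [← g3, ← f4]) (by rw [← f2]; linarith)
      (by rw [← f4]; linarith)
    rw [r3, r4] at f2 f4
    exact ⟨by linarith, by linarith, by linarith, by linarith, Or.inl ⟨r3, by linarith⟩⟩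
  · -- both positive
    exfalso
    have t1 : 0 < T x2 := T_pos (by linarith) (by linarith)
    have t2 : 0 < T y2 := T_pos (by linarith) (by linarith)
    have p1 : 0 < x3 := by rw [e2]; exact mul_pos (by linarith) t2
    have p2 : 0 < y3 := by rw [e4]; exact mul_pos (by linarith) t1
    have q1 : 0 < x1 := by rw [e1] at p1; exact (pos_iff_pos_of_mul_pos p1).2 ty
    have q2 : 0 < y1 := by rw [e3] at p2; exact (pos_iff_pos_of_mul_pos p2).2 tx
    exact no_pos (p := x2) (q := y2) q1 q2 hx1 hy1 (by linarith) (by linarith)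
      (by rw [← e1, ← e2]) (by rw [← e3, ← e4]) (by rw [← e2]; linarith) (by rw [← e4]; linarith)

end Crest.Agent.R205
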