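import Mathlib
import Crest.Agent.R205.Alg

set_option autoImplicit false

namespace Crest.Agent.R205

open Crest.GeometryTopology.Quadric Real

noncomputable def a1 (z : V) : ℝ := π + y2 z / 10
noncomputable def a2 (z : V) : ℝ := (x1 z - 1) / 10
noncomputable def b1 (z : V) : ℝ := (1 - y1 z) / 10
noncomputable def b2 (z : V) : ℝ := -x2 z / 10

/-- rotation by an angle -/
noncomputable def E (J : V →L[ℝ] V) (θ : ℝ) (z : V) : V := U J (cos θ) (sin θ) z

noncomputable def phiA (τ : ℝ) (z : V) : V := E L1 (τ * a1 z) (E R2 (τ * a2 z) z)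
noncomputable def phiB (τ : ℝ) (z : V) : V := E L2 (τ * b1 z) (E R1 (τ * b2 z) z)

noncomputable def HA (z : V) : ℝ := π * x1 z + (x1 z - 1) * y2 z / 10
noncomputable def HB (z : V) : ℝ := x2 z * (1 - y1 z) / 10

noncomputable def ta (t : ℝ) : ℝ := smoothTransition (2 * t - 1)
noncomputable def tb (t : ℝ) : ℝ := smoothTransition (2 * t)

noncomputable def Psi (p : ℝ × V) : V := phiA (ta p.1) (phiB (tb p.1) p.2)
noncomputable def Ham (p : ℝ × V) : ℝ := deriv ta p.1 * HA p.2 + deriv tb p.1 * HB p.2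

lemma cs (θ : ℝ) : cos θ ^ 2 + sin θ ^ 2 = 1 := cos_sq_add_sin_sq θ

@[fun_prop] lemma m_contDiff (i j : Fin 5) : ContDiff ℝ (⊤ : ℕ∞) (m i j) := by
  unfold m
  have hre : ∀ k : Fin 5, ContDiff ℝ (⊤ : ℕ∞) (fun z : V => (z k).re) := fun k =>
    Complex.reCLM.contDiff.comp (contDiff_apply ℝ ℂ k)
  have him : ∀ k : Fin 5, ContDiff ℝ (⊤ : ℕ∞) (fun z : V => (z k).im) := fun k =>
    Complex.imCLM.contDiff.comp (contDiff_apply ℝ ℂ k)
  exact ((hre i).mul (him j)).sub ((him i).mul (hre j))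

@[fun_prop] lemma x1_contDiff : ContDiff ℝ (⊤ : ℕ∞) x1 := by unfold x1; fun_prop
@[fun_prop] lemma x2_contDiff : ContDiff ℝ (⊤ : ℕ∞) x2 := by unfold x2; fun_prop
@[fun_prop] lemma y1_contDiff : ContDiff ℝ (⊤ : ℕ∞) y1 := by unfold y1; fun_prop
@[fun_prop] lemma y2_contDiff : ContDiff ℝ (⊤ : ℕ∞) y2 := by unfold y2; fun_prop
@[fun_prop] lemma a1_contDiff : ContDiff ℝ (⊤ : ℕ∞) a1 := by unfold a1; fun_prop
@[fun_prop] lemma a2_contDiff : ContDiff ℝ (⊤ : ℕ∞) a2 := by unfold a2; fun_prop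
@[fun_prop] lemma b1_contDiff : ContDiff ℝ (⊤ : ℕ∞) b1 := by unfold b1; fun_prop
@[fun_prop] lemma b2_contDiff : ContDiff ℝ (⊤ : ℕ∞) b2 := by unfold b2; fun_prop
@[fun_prop] lemma HA_contDiff : ContDiff ℝ (⊤ : ℕ∞) HA := by unfold HA; fun_prop
@[fun_prop] lemma HB_contDiff : ContDiff ℝ (⊤ : ℕ∞) HB := by unfold HB; fun_prop
@[fun_prop] lemma ta_contDiff : ContDiff ℝ (⊤ : ℕ∞) ta := by
  unfold ta; exact smoothTransition.contDiff.comp (by fun_prop)
@[fun_prop] lemma tb_contDiff : ContDiff ℝ (⊤ : ℕ∞) tb := by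
  unfold tb; exact smoothTransition.contDiff.comp (by fun_prop)

lemma E_contDiff {X : Type} [NormedAddCommGroup X] [NormedSpace ℝ X] (J : V →L[ℝ] V)
    {θ : X → ℝ} {f : X → V} (hθ : ContDiff ℝ (⊤ : ℕ∞) θ) (hf : ContDiff ℝ (⊤ : ℕ∞) f) :
    ContDiff ℝ (⊤ : ℕ∞) (fun x => E J (θ x) (f x)) := by
  unfold E U
  exact ((hθ.cos.smul (P.contDiff.comp hf)).add (hθ.sin.smul (J.contDiff.comp hf))).add
    (Q.contDiff.comp hf)

lemma phiA_contDiff {X : Type} [NormedAddCommGroup X] [NormedSpace ℝ X]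
    {θ : X → ℝ} {f : X → V} (hθ : ContDiff ℝ (⊤ : ℕ∞) θ) (hf : ContDiff ℝ (⊤ : ℕ∞) f) :
    ContDiff ℝ (⊤ : ℕ∞) (fun x => phiA (θ x) (f x)) := by
  unfold phiA
  exact E_contDiff _ (hθ.mul (a1_contDiff.comp hf)) (E_contDiff _ (hθ.mul (a2_contDiff.comp hf)) hf)

lemma phiB_contDiff {X : Type} [NormedAddCommGroup X] [NormedSpace ℝ X]
    {θ : X → ℝ} {f : X → V} (hθ : ContDiff ℝ (⊤ : ℕ∞) θ) (hf : ContDiff ℝ (⊤ : ℕ∞) f) :
    ContDiff ℝ (⊤ : ℕ∞) (fun x => phiB (θ x) (f x)) := by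
  unfold phiB
  exact E_contDiff _ (hθ.mul (b1_contDiff.comp hf)) (E_contDiff _ (hθ.mul (b2_contDiff.comp hf)) hf)

lemma Psi_contDiff : ContDiff ℝ (⊤ : ℕ∞) Psi := by
  unfold Psi
  exact phiA_contDiff (ta_contDiff.comp contDiff_fst)
    (phiB_contDiff (tb_contDiff.comp contDiff_fst) contDiff_snd)

lemma Ham_contDiff : ContDiff ℝ (⊤ : ℕ∞) Ham := by
  unfold Ham
  have h1 : ContDiff ℝ (⊤ : ℕ∞) (deriv ta) := (contDiff_infty_iff_deriv.1 ta_contDiff).2
  have h2 : ContDiff ℝ (⊤ : ℕ∞) (deriv tb) := (contDiff_infty_iff_deriv.1 tb_contDiff).2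
  exact ((h1.comp contDiff_fst).mul (HA_contDiff.comp contDiff_snd)).add
    ((h2.comp contDiff_fst).mul (HB_contDiff.comp contDiff_snd))

lemma phiA_cone (τ : ℝ) {z : V} (hz : z ∈ unitCone) : phiA τ z ∈ unitCone :=
  U_L1_cone (cs _) _ (U_R2_cone (cs _) _ hz)
lemma phiB_cone (τ : ℝ) {z : V} (hz : z ∈ unitCone) : phiB τ z ∈ unitCone :=
  U_L2_cone (cs _) _ (U_R1_cone (cs _) _ hz)

lemma phiA_smul (τ : ℝ) (z : V) (c : ℂ) (hc : ‖c‖ = 1) : phiA τ (c • z) = c • phiA τ z := by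
  simp only [phiA, E, a1, a2, x1_smul c hc, y2_smul c hc, U_R2_smul, U_L1_smul]
lemma phiB_smul (τ : ℝ) (z : V) (c : ℂ) (hc : ‖c‖ = 1) : phiB τ (c • z) = c • phiB τ z := by
  simp only [phiB, E, b1, b2, x2_smul c hc, y1_smul c hc, U_R1_smul, U_L2_smul]

lemma phiA_zero (z : V) : phiA 0 z = z := by simp [phiA, E, U_one]
lemma phiB_zero (z : V) : phiB 0 z = z := by simp [phiB, E, U_one]

lemma x1_phiA (τ : ℝ) (z : V) : x1 (phiA τ z) = x1 z := by
  simp only [phiA, E, x1_L1 (cs _), x1_R2 (cs _)]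
lemma y2_phiA (τ : ℝ) (z : V) : y2 (phiA τ z) = y2 z := by
  simp only [phiA, E, y2_L1 (cs _), y2_R2 (cs _)]
lemma x2_phiB (τ : ℝ) (z : V) : x2 (phiB τ z) = x2 z := by
  simp only [phiB, E, x2_L2 (cs _), x2_R1 (cs _)]
lemma y1_phiB (τ : ℝ) (z : V) : y1 (phiB τ z) = y1 z := by
  simp only [phiB, E, y1_L2 (cs _), y1_R1 (cs _)]

lemma E_hasDerivAt (J : V →L[ℝ] V) {θ : ℝ → ℝ} {f : ℝ → V} {θ' : ℝ} {f' : V} {t : ℝ}
    (hθ : HasDerivAt θ θ' t) (hf : HasDerivAt f f' t) :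
    HasDerivAt (fun s => E J (θ s) (f s))
      (θ' • (-sin (θ t) • P (f t) + cos (θ t) • J (f t)) + E J (θ t) f') t := by
  unfold E U
  have hP := P.hasFDerivAt.comp_hasDerivAt t hf
  have hJ := J.hasFDerivAt.comp_hasDerivAt t hf
  have hQ := Q.hasFDerivAt.comp_hasDerivAt t hf
  refine (((hθ.cos.smul hP).add (hθ.sin.smul hJ)).add hQ).congr_deriv ?_
  simp only [Function.comp]
  module

lemma phiA_hasDerivAt (z : V) {θ : ℝ → ℝ} {θ' t : ℝ} (hθ : HasDerivAt θ θ' t) :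
    HasDerivAt (fun s => phiA (θ s) z)
      (θ' • (a1 z • L1 (phiA (θ t) z) + a2 z • R2 (phiA (θ t) z))) t := by
  unfold phiA
  convert E_hasDerivAt L1 (hθ.mul_const (a1 z))
    (E_hasDerivAt R2 (hθ.mul_const (a2 z)) (hasDerivAt_const t z)) using 1
  simp only [E, U_L1, U_R2, L1_apply, R2_apply, P_apply]
  ext i; fin_cases i <;> simp <;> ring

lemma phiB_hasDerivAt (z : V) {θ : ℝ → ℝ} {θ' t : ℝ} (hθ : HasDerivAt θ θ' t) :
    HasDerivAt (fun s => phiB (θ s) z)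
      (θ' • (b1 z • L2 (phiB (θ t) z) + b2 z • R1 (phiB (θ t) z))) t := by
  unfold phiB
  convert E_hasDerivAt L2 (hθ.mul_const (b1 z))
    (E_hasDerivAt R1 (hθ.mul_const (b2 z)) (hasDerivAt_const t z)) using 1
  simp only [E, U_L2, U_R1, L2_apply, R1_apply, P_apply]
  ext i; fin_cases i <;> simp <;> ring

/-- directional derivative along a line -/
lemma fderiv_line {F : Type} [NormedAddCommGroup F] [NormedSpace ℝ F] {f : V → F} {p w : V} {d : F}
    (hf : DifferentiableAt ℝ f p) (h : HasDerivAt (fun s : ℝ => f (p + s • w)) d 0) :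
    fderiv ℝ f p w = d := by
  have h1 : HasDerivAt (fun s : ℝ => p + s • w) w 0 := by
    simpa using ((hasDerivAt_id (0 : ℝ)).smul_const w).const_add p
  have h2 : HasFDerivAt f (fderiv ℝ f p) (p + (0 : ℝ) • w) := by simpa using hf.hasFDerivAt
  exact (h2.comp_hasDerivAt (0 : ℝ) h1).unique h

lemma m_line (i j : Fin 5) (p w : V) : HasDerivAt (fun s : ℝ => m i j (p + s • w))
    ((p i).re * (w j).im + (w i).re * (p j).im - (p i).im * (w j).re - (w i).im * (p j).re) 0 := by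
  have e : (fun s : ℝ => m i j (p + s • w)) = fun s : ℝ => m i j p + s *
      ((p i).re * (w j).im + (w i).re * (p j).im - (p i).im * (w j).re - (w i).im * (p j).re) +
      s ^ 2 * m i j w := by
    funext s; simp [m]; ring
  rw [e]
  have h1 := (((hasDerivAt_id (0 : ℝ)).mul_const ((p i).re * (w j).im + (w i).re * (p j).im -
    (p i).im * (w j).re - (w i).im * (p j).re)).const_add (m i j p)).add
    ((hasDerivAt_pow 2 (0 : ℝ)).mul_const (m i j w))
  refine h1.congr_deriv ?_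
  simp

lemma x1_line (p w : V) : HasDerivAt (fun s : ℝ => x1 (p + s • w)) (2 * (herm (L1 p) w).im) 0 := by
  unfold x1
  refine (((m_line 0 1 p w).add (m_line 2 3 p w)).const_mul 2).congr_deriv ?_
  simp [herm, Fin.sum_univ_five, L1_apply]; ring
lemma x2_line (p w : V) : HasDerivAt (fun s : ℝ => x2 (p + s • w)) (2 * (herm (L2 p) w).im) 0 := by
  unfold x2
  refine (((m_line 0 2 p w).add (m_line 3 1 p w)).const_mul 2).congr_deriv ?_
  simp [herm, Fin.sum_univ_five, L2_apply]; ring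
lemma y1_line (p w : V) : HasDerivAt (fun s : ℝ => y1 (p + s • w)) (2 * (herm (R1 p) w).im) 0 := by
  unfold y1
  refine (((m_line 0 1 p w).sub (m_line 2 3 p w)).const_mul 2).congr_deriv ?_
  simp [herm, Fin.sum_univ_five, R1_apply]; ring
lemma y2_line (p w : V) : HasDerivAt (fun s : ℝ => y2 (p + s • w)) (2 * (herm (R2 p) w).im) 0 := by
  unfold y2
  refine (((m_line 0 2 p w).sub (m_line 3 1 p w)).const_mul 2).congr_deriv ?_
  simp [herm, Fin.sum_univ_five, R2_apply]; ring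

lemma herm_comb (k α β : ℝ) (u v w : V) :
    (herm (k • (α • u + β • v)) w).im = k * (α * (herm u w).im + β * (herm v w).im) := by
  simp [herm, Fin.sum_univ_five]; ring

lemma Ham_fderiv (t : ℝ) (p w : V) : fderiv ℝ (fun x : V => Ham (t, x)) p w =
    deriv ta t * (a1 p * (2 * (herm (L1 p) w).im) + a2 p * (2 * (herm (R2 p) w).im)) +
    deriv tb t * (b1 p * (2 * (herm (L2 p) w).im) + b2 p * (2 * (herm (R1 p) w).im)) := by
  apply fderiv_line
  · exact ((Ham_contDiff.comp (contDiff_const.prodMk contDiff_id)).differentiable (by simp)) p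
  · unfold Ham HA HB
    have h1 := x1_line p w
    have h2 := x2_line p w
    have h3 := y1_line p w
    have h4 := y2_line p w
    refine ((((h1.const_mul π).add (((h1.sub_const 1).mul h4).div_const 10)).const_mul
      (deriv ta t)).add (((h2.mul (h3.const_sub 1)).div_const 10).const_mul
      (deriv tb t))).congr_deriv ?_
    simp only [a1, a2, b1, b2, zero_smul, add_zero]
    ring

lemma ta_zero {t : ℝ} (ht : t ≤ 1 / 2) : ta t = 0 :=
  smoothTransition.zero_of_nonpos (by linarith)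
lemma tb_one {t : ℝ} (ht : 1 / 2 ≤ t) : tb t = 1 :=
  smoothTransition.one_of_one_le (by linarith)
lemma ta_one : ta 1 = 1 := smoothTransition.one_of_one_le (by norm_num)
lemma tb_zero : tb 0 = 0 := smoothTransition.zero_of_nonpos (by norm_num)

lemma ta_diff (t : ℝ) : HasDerivAt ta (deriv ta t) t :=
  (ta_contDiff.differentiable (by simp) t).hasDerivAt
lemma tb_diff (t : ℝ) : HasDerivAt tb (deriv tb t) t :=
  (tb_contDiff.differentiable (by simp) t).hasDerivAt

lemma deriv_ta_zero {t : ℝ} (ht : t ≤ 1 / 2) : deriv ta t = 0 := by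
  have h1 : HasDerivWithinAt ta (deriv ta t) (Set.Iic t) t := (ta_diff t).hasDerivWithinAt
  have h2 : HasDerivWithinAt ta 0 (Set.Iic t) t :=
    (hasDerivWithinAt_const t _ (0 : ℝ)).congr (fun s hs => ta_zero (le_trans hs ht)) (ta_zero ht)
  exact (uniqueDiffWithinAt_Iic t).eq_deriv _ h1 h2

lemma deriv_tb_zero {t : ℝ} (ht : 1 / 2 ≤ t) : deriv tb t = 0 := by
  have h1 : HasDerivWithinAt tb (deriv tb t) (Set.Ici t) t := (tb_diff t).hasDerivWithinAt
  have h2 : HasDerivWithinAt tb 0 (Set.Ici t) t :=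
    (hasDerivWithinAt_const t _ (1 : ℝ)).congr (fun s hs => tb_one (le_trans ht hs)) (tb_one ht)
  exact (uniqueDiffWithinAt_Ici t).eq_deriv _ h1 h2

lemma Psi_diff (t : ℝ) (z : V) :
    HasDerivAt (fun s : ℝ => Psi (s, z)) (deriv (fun s : ℝ => Psi (s, z)) t) t :=
  ((Psi_contDiff.comp (contDiff_id.prodMk contDiff_const)).differentiable (by simp) t).hasDerivAt

lemma hamilton_eq (t : ℝ) (z w : V) :
    2 * (herm (deriv (fun s : ℝ => Psi (s, z)) t) w).im =
      fderiv ℝ (fun x : V => Ham (t, x)) (Psi (t, z)) w := by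
  rw [Ham_fderiv]
  rcases le_total t (1 / 2) with ht | ht
  · have e : ∀ s ≤ t, Psi (s, z) = phiB (tb s) z := fun s hs => by
      simp only [Psi, ta_zero (le_trans hs ht), phiA_zero]
    have h1 : HasDerivWithinAt (fun s : ℝ => Psi (s, z)) _ (Set.Iic t) t :=
      (Psi_diff t z).hasDerivWithinAt
    have h2 := ((phiB_hasDerivAt z (tb_diff t)).hasDerivWithinAt (s := Set.Iic t)).congr
      (f₁ := fun s : ℝ => Psi (s, z)) (fun s hs => e s hs) (e t le_rfl)
    rw [(uniqueDiffWithinAt_Iic t).eq_deriv _ h1 h2, deriv_ta_zero ht, e t le_rfl, herm_comb]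
    simp only [b1, b2, x2_phiB, y1_phiB]
    ring
  · have e : ∀ s, t ≤ s → Psi (s, z) = phiA (ta s) (phiB 1 z) := fun s hs => by
      simp only [Psi, tb_one (le_trans ht hs)]
    have h1 : HasDerivWithinAt (fun s : ℝ => Psi (s, z)) _ (Set.Ici t) t :=
      (Psi_diff t z).hasDerivWithinAt
    have h2 := ((phiA_hasDerivAt (phiB 1 z) (ta_diff t)).hasDerivWithinAt (s := Set.Ici t)).congr
      (f₁ := fun s : ℝ => Psi (s, z)) (fun s hs => e s hs) (e t le_rfl)
    rw [(uniqueDiffWithinAt_Ici t).eq_deriv _ h1 h2, deriv_tb_zero ht, e t le_rfl, herm_comb]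
    simp only [a1, a2, x1_phiA, y2_phiA]
    ring

/-- The Hamiltonian isotopy. -/
noncomputable def lift : HamiltonianConeLift where
  Ψ := Psi
  H := Ham
  smooth_Ψ := Psi_contDiff
  smooth_H := Ham_contDiff
  mapsTo_cone := fun _ _ hz => phiA_cone _ (phiB_cone _ hz)
  compatible := fun t z _ c hc => ⟨c, by simp only [Psi, phiB_smul _ _ c hc, phiA_smul _ _ c hc]⟩
  start := fun z _ => ⟨1, by
    simp only [Psi, ta_zero (t := 0) (by norm_num), tb_zero, phiA_zero, phiB_zero, one_smul]⟩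
  invariant := fun t z _ c hc => by
    simp only [Ham, HA, HB, x1_smul c hc, x2_smul c hc, y1_smul c hc, y2_smul c hc]
  hamilton := fun t _ z _ w _ => hamilton_eq t z w

lemma Psi_one (z : V) : Psi (1, z) = phiA 1 (phiB 1 z) := by
  simp only [Psi, ta_one, tb_one (t := 1) (by norm_num)]

end Crest.Agent.R205
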