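import Mathlib
import Crest.Agent.R205.Flow
import Crest.Agent.R205.Count

set_option autoImplicit false

namespace Crest.Agent.R205

open Crest.GeometryTopology.Quadric Real

lemma abs_sin_tenth {u : ℝ} (h : |u| ≤ 2) : |sin (u / 10)| ≤ 1 / 5 := by
  have := Real.abs_sin_le_abs (x := u / 10)
  rw [abs_div] at this
  norm_num at this
  linarith

lemma sin_ne {u : ℝ} (h0 : 0 < u) (h : u ≤ 2) : 0 < sin (u / 10) :=
  sin_pos_of_pos_of_lt_pi (by linarith) (by linarith [pi_gt_three])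

lemma four_eq_zero {z : V} {c : ℂ} (hz : z ∈ unitCone) (h : Psi (1, z) = c • z) : z 4 = 0 := by
  by_contra h4
  rw [Psi_one] at h
  have hc : c = 1 := by
    have h1 := congrFun h 4
    simp only [phiA, phiB, E, U_L1_four, U_R2_four, U_L2_four, U_R1_four, Pi.smul_apply,
      smul_eq_mul] at h1
    exact (mul_eq_right₀ h4).1 h1.symm
  rw [hc, one_smul] at h
  set w := phiB 1 z with hw
  have hwc : w ∈ unitCone := phiB_cone 1 hz
  obtain ⟨-, k2, k3, -⟩ := mom_bd hz
  obtain ⟨k1, -, -, k4⟩ := mom_bd hwc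
  have k1' := abs_le.1 k1
  have k2' := abs_le.1 k2
  have k3' := abs_le.1 k3
  have k4' := abs_le.1 k4
  have hB := ip_B (cos (1 * b1 z)) (sin (1 * b1 z)) (cos (1 * b2 z)) (sin (1 * b2 z)) z
  have hA := ip_A (cos (1 * a1 w)) (sin (1 * a1 w)) (cos (1 * a2 w)) (sin (1 * a2 w)) w
  change _ ≤ ip z w at hB
  change ip w (phiA 1 w) ≤ _ at hA
  rw [h] at hA
  have sym : ip w z = ip z w := by unfold ip; ring
  have n1 : 0 ≤ ip z z := by unfold ip; nlinarith [mul_self_nonneg (z 0).re, mul_self_nonneg (z 0).im, mul_self_nonneg (z 1).re, mul_self_nonneg (z 1).im, mul_self_nonneg (z 2).re, mul_self_nonneg (z 2).im, mul_self_nonneg (z 3).re, mul_self_nonneg (z 3).im]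
  have n2 : 0 ≤ ip w w := by unfold ip; nlinarith [mul_self_nonneg (w 0).re, mul_self_nonneg (w 0).im, mul_self_nonneg (w 1).re, mul_self_nonneg (w 1).im, mul_self_nonneg (w 2).re, mul_self_nonneg (w 2).im, mul_self_nonneg (w 3).re, mul_self_nonneg (w 3).im]
  simp only [one_mul, a1, a2, b1, b2] at hA hB
  rw [add_comm π, cos_add_pi, sin_add_pi] at hA
  have c1 := cos_lower (u := 1 - y1 z) (abs_le.2 ⟨by linarith, by linarith⟩)
  have c2 := cos_lower (u := -x2 z) (abs_le.2 ⟨by linarith, by linarith⟩)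
  have c3 := cos_lower (u := y2 w) (abs_le.2 ⟨by linarith, by linarith⟩)
  have c4 := cos_lower (u := x1 w - 1) (abs_le.2 ⟨by linarith, by linarith⟩)
  have s1 := abs_sin_tenth (u := 1 - y1 z) (abs_le.2 ⟨by linarith, by linarith⟩)
  have s2 := abs_sin_tenth (u := -x2 z) (abs_le.2 ⟨by linarith, by linarith⟩)
  have s3 := abs_sin_tenth (u := y2 w) (abs_le.2 ⟨by linarith, by linarith⟩)
  have s4 := abs_sin_tenth (u := x1 w - 1) (abs_le.2 ⟨by linarith, by linarith⟩)
  rw [abs_mul, abs_neg] at hA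
  rw [abs_mul] at hB
  have p1 : 1 / 2 ≤ cos ((1 - y1 z) / 10) * cos (-x2 z / 10) -
      |sin ((1 - y1 z) / 10)| * |sin (-x2 z / 10)| := by
    nlinarith [abs_nonneg (sin ((1 - y1 z) / 10)), abs_nonneg (sin (-x2 z / 10))]
  have p2 : -cos (y2 w / 10) * cos ((x1 w - 1) / 10) +
      |sin (y2 w / 10)| * |sin ((x1 w - 1) / 10)| ≤ 0 := by
    nlinarith [abs_nonneg (sin (y2 w / 10)), abs_nonneg (sin ((x1 w - 1) / 10))]
  have q1 : ip z z ≤ 0 := by nlinarith
  have hz2 := ((mem_cone_iff z).1 hz).2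
  unfold ip at q1
  have z0 : z 0 = 0 := by
    apply Complex.ext <;> simp <;> nlinarith [mul_self_nonneg (z 0).re, mul_self_nonneg (z 0).im, mul_self_nonneg (z 1).re, mul_self_nonneg (z 1).im, mul_self_nonneg (z 2).re, mul_self_nonneg (z 2).im, mul_self_nonneg (z 3).re, mul_self_nonneg (z 3).im]
  have z1 : z 1 = 0 := by
    apply Complex.ext <;> simp <;> nlinarith [mul_self_nonneg (z 0).re, mul_self_nonneg (z 0).im, mul_self_nonneg (z 1).re, mul_self_nonneg (z 1).im, mul_self_nonneg (z 2).re, mul_self_nonneg (z 2).im, mul_self_nonneg (z 3).re, mul_self_nonneg (z 3).im]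
  have z2 : z 2 = 0 := by
    apply Complex.ext <;> simp <;> nlinarith [mul_self_nonneg (z 0).re, mul_self_nonneg (z 0).im, mul_self_nonneg (z 1).re, mul_self_nonneg (z 1).im, mul_self_nonneg (z 2).re, mul_self_nonneg (z 2).im, mul_self_nonneg (z 3).re, mul_self_nonneg (z 3).im]
  have z3 : z 3 = 0 := by
    apply Complex.ext <;> simp <;> nlinarith [mul_self_nonneg (z 0).re, mul_self_nonneg (z 0).im, mul_self_nonneg (z 1).re, mul_self_nonneg (z 1).im, mul_self_nonneg (z 2).re, mul_self_nonneg (z 2).im, mul_self_nonneg (z 3).re, mul_self_nonneg (z 3).im]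
  rw [z0, z1, z2, z3] at hz2
  simp at hz2
  exact h4 hz2

section moments
variable (z : V)

lemma x1_B : x1 (phiB 1 z) = (cos ((1 - y1 z) / 10) ^ 2 - sin ((1 - y1 z) / 10) ^ 2) * x1 z +
    2 * sin ((1 - y1 z) / 10) * cos ((1 - y1 z) / 10) * x3 z := by
  simp only [phiB, E, x1_L2, x1_R1 (cs _), x3_R1 (cs _), one_mul, b1]
lemma x3_B : x3 (phiB 1 z) = (cos ((1 - y1 z) / 10) ^ 2 - sin ((1 - y1 z) / 10) ^ 2) * x3 z -
    2 * sin ((1 - y1 z) / 10) * cos ((1 - y1 z) / 10) * x1 z := by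
  simp only [phiB, E, x3_L2, x1_R1 (cs _), x3_R1 (cs _), one_mul, b1]
lemma y2_B : y2 (phiB 1 z) = (cos (x2 z / 10) ^ 2 - sin (x2 z / 10) ^ 2) * y2 z -
    2 * sin (x2 z / 10) * cos (x2 z / 10) * y3 z := by
  simp only [phiB, E, y2_L2 (cs _), y2_R1, one_mul, b2, neg_div, cos_neg, sin_neg]; ring
lemma y3_B : y3 (phiB 1 z) = (cos (x2 z / 10) ^ 2 - sin (x2 z / 10) ^ 2) * y3 z +
    2 * sin (x2 z / 10) * cos (x2 z / 10) * y2 z := by
  simp only [phiB, E, y3_L2 (cs _), y3_R1, one_mul, b2, neg_div, cos_neg, sin_neg]; ring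
lemma x2_A : x2 (phiA 1 z) = (cos (y2 z / 10) ^ 2 - sin (y2 z / 10) ^ 2) * x2 z -
    2 * sin (y2 z / 10) * cos (y2 z / 10) * x3 z := by
  simp only [phiA, E, x2_L1, x2_R2 (cs _), x3_R2 (cs _), one_mul, a1, add_comm π, cos_add_pi,
    sin_add_pi]; ring
lemma x3_A : x3 (phiA 1 z) = (cos (y2 z / 10) ^ 2 - sin (y2 z / 10) ^ 2) * x3 z +
    2 * sin (y2 z / 10) * cos (y2 z / 10) * x2 z := by
  simp only [phiA, E, x3_L1, x2_R2 (cs _), x3_R2 (cs _), one_mul, a1, add_comm π, cos_add_pi,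
    sin_add_pi]; ring
lemma y1_A : y1 (phiA 1 z) = (cos ((1 - x1 z) / 10) ^ 2 - sin ((1 - x1 z) / 10) ^ 2) * y1 z +
    2 * sin ((1 - x1 z) / 10) * cos ((1 - x1 z) / 10) * y3 z := by
  have : (x1 z - 1) / 10 = -((1 - x1 z) / 10) := by ring
  simp only [phiA, E, y1_L1 (cs _), y1_R2, one_mul, a2, this, cos_neg, sin_neg]; ring
lemma y3_A : y3 (phiA 1 z) = (cos ((1 - x1 z) / 10) ^ 2 - sin ((1 - x1 z) / 10) ^ 2) * y3 z -
    2 * sin ((1 - x1 z) / 10) * cos ((1 - x1 z) / 10) * y1 z := by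
  have : (x1 z - 1) / 10 = -((1 - x1 z) / 10) := by ring
  simp only [phiA, E, y3_L1 (cs _), y3_R2, one_mul, a2, this, cos_neg, sin_neg]; ring

end moments

lemma T_mul_cos {u : ℝ} (h : |u| ≤ 2) : T u * cos (u / 10) = sin (u / 10) := by
  have := cos_lower h
  unfold T
  rw [tan_eq_sin_div_cos]
  field_simp

/-- necessary conditions for a fixed line -/
lemma fixed_nec {z : V} {c : ℂ} (hz : z ∈ unitCone) (h : Psi (1, z) = c • z) :
    (x1 z = 1 ∧ y1 z = 1) ∨ (x1 z ≠ 1 ∧ y1 z ≠ 1 ∧ x3 z = x1 z * T (1 - y1 z) ∧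
      x3 z = x2 z * T (y2 z) ∧ -y3 z = y1 z * T (1 - x1 z) ∧ -y3 z = y2 z * T (x2 z)) := by
  have h4 := four_eq_zero hz h
  obtain ⟨sx, sy⟩ := mom_sphere hz h4
  obtain ⟨k1, k2, k3, k4⟩ := mom_bd hz
  have k1' := abs_le.1 k1
  have k2' := abs_le.1 k2
  have k3' := abs_le.1 k3
  have k4' := abs_le.1 k4
  have hc : ‖c‖ = 1 := norm_one_of_cone hz (h ▸ phiA_cone _ (phiB_cone _ hz))
  rw [Psi_one] at h
  have e1 := congrArg x1 h
  have e2 := congrArg x2 h
  have e3 := congrArg x3 h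
  have f1 := congrArg y1 h
  have f2 := congrArg y2 h
  have f3 := congrArg y3 h
  rw [x1_smul c hc, x1_phiA] at e1
  rw [y2_smul c hc, y2_phiA] at f2
  rw [x2_smul c hc, x2_A, f2, x2_phiB] at e2
  rw [x3_smul c hc, x3_A, f2, x2_phiB] at e3
  rw [y1_smul c hc, y1_A, e1, y1_phiB] at f1
  rw [y3_smul c hc, y3_A, e1, y1_phiB] at f3
  have g3 := x3_B z
  have g4 := y3_B z
  rw [x1_B] at e1
  rw [y2_B] at f2
  have c1 := cos_lower (u := 1 - y1 z) (abs_le.2 ⟨by linarith, by linarith⟩)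
  have c2 := cos_lower (u := x2 z) (abs_le.2 ⟨by linarith, by linarith⟩)
  have c3 := cos_lower (u := y2 z) (abs_le.2 ⟨by linarith, by linarith⟩)
  have c4 := cos_lower (u := 1 - x1 z) (abs_le.2 ⟨by linarith, by linarith⟩)
  have t1 := T_mul_cos (u := 1 - y1 z) (abs_le.2 ⟨by linarith, by linarith⟩)
  have t2 := T_mul_cos (u := x2 z) (abs_le.2 ⟨by linarith, by linarith⟩)
  have t3 := T_mul_cos (u := y2 z) (abs_le.2 ⟨by linarith, by linarith⟩)
  have t4 := T_mul_cos (u := 1 - x1 z) (abs_le.2 ⟨by linarith, by linarith⟩)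
  have u1 := cs ((1 - y1 z) / 10)
  have u2 := cs (x2 z / 10)
  have u3 := cs (y2 z / 10)
  have u4 := cs ((1 - x1 z) / 10)
  have hs1 : y1 z ≠ 1 → 0 < sin ((1 - y1 z) / 10) := fun hy =>
    sin_ne (by have := lt_of_le_of_ne k3'.2 hy; linarith) (by linarith)
  have hs4 : x1 z ≠ 1 → 0 < sin ((1 - x1 z) / 10) := fun hy =>
    sin_ne (by have := lt_of_le_of_ne k1'.2 hy; linarith) (by linarith)
  set C1 := cos ((1 - y1 z) / 10)
  set S1 := sin ((1 - y1 z) / 10)
  set C2 := cos (x2 z / 10)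
  set S2 := sin (x2 z / 10)
  set C3 := cos (y2 z / 10)
  set S3 := sin (y2 z / 10)
  set C4 := cos ((1 - x1 z) / 10)
  set S4 := sin ((1 - x1 z) / 10)
  by_cases hy : y1 z = 1
  · left
    refine ⟨?_, hy⟩
    by_contra hx
    have := hs4 hx
    have p2 : y2 z = 0 := by nlinarith [sq_nonneg (y2 z), sq_nonneg (y3 z)]
    have p3 : y3 z = 0 := by nlinarith [sq_nonneg (y2 z), sq_nonneg (y3 z)]
    rw [p2, p3] at g4
    simp only [mul_zero, add_zero] at g4
    rw [g4, hy] at f1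
    nlinarith
  by_cases hx : x1 z = 1
  · exfalso
    have := hs1 hy
    have p3 : x3 z = 0 := by nlinarith [sq_nonneg (x2 z), sq_nonneg (x3 z)]
    rw [p3, hx] at e1
    nlinarith
  right
  have s1 := hs1 hy
  have s4 := hs4 hx
  have q1 : C1 * x3 z = S1 * x1 z := by
    have : S1 * (C1 * x3 z - S1 * x1 z) = 0 := by linear_combination (1 / 2) * e1 - (x1 z / 2) * u1
    rcases mul_eq_zero.1 this with h | h
    · linarith
    · linarith
  have q2 : x3 (phiB 1 z) = -x3 z := by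
    rw [g3]; linear_combination (2 * C1) * q1 - (x3 z) * u1
  have q3 : C3 * x3 z = S3 * x2 z := by
    rw [q2] at e3
    have : C3 * (C3 * x3 z - S3 * x2 z) = 0 := by
      linear_combination (-1 / 2) * e3 + (x3 z / 2) * u3
    rcases mul_eq_zero.1 this with h | h
    · linarith
    · linarith
  have q4 : C4 * y3 (phiB 1 z) = S4 * y1 z := by
    have : S4 * (C4 * y3 (phiB 1 z) - S4 * y1 z) = 0 := by
      linear_combination (1 / 2) * f1 - (y1 z / 2) * u4
    rcases mul_eq_zero.1 this with h | h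
    · linarith
    · linarith
  have q5 : y3 (phiB 1 z) = -y3 z := by
    linear_combination (-1) * f3 + (2 * C4) * q4 - (y3 (phiB 1 z)) * u4
  have q6 : C2 * (-y3 z) = S2 * y2 z := by
    rw [q5] at g4
    have : C2 * (C2 * (-y3 z) - S2 * y2 z) = 0 := by
      linear_combination (1 / 2) * g4 - (y3 z / 2) * u2
    rcases mul_eq_zero.1 this with h | h
    · linarith
    · linarith
  rw [q5] at q4
  refine ⟨hx, hy, ?_, ?_, ?_, ?_⟩
  · apply mul_left_cancel₀ (a := C1) (by linarith); rw [q1, ← t1]; ring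
  · apply mul_left_cancel₀ (a := C3) (by linarith); rw [q3, ← t3]; ring
  · apply mul_left_cancel₀ (a := C4) (by linarith); rw [q4, ← t4]; ring
  · apply mul_left_cancel₀ (a := C2) (by linarith); rw [q6, ← t2]; ring

/-- sufficient conditions for a fixed line -/
lemma fixed_suf {z : V} (hz : z ∈ unitCone) (h4 : z 4 = 0)
    (r1 : x3 z = x1 z * T (1 - y1 z)) (r2 : x3 z = x2 z * T (y2 z))
    (r3 : -y3 z = y1 z * T (1 - x1 z)) (r4 : -y3 z = y2 z * T (x2 z)) :
    ∃ c : ℂ, Psi (1, z) = c • z := by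
  obtain ⟨k1, k2, k3, k4⟩ := mom_bd hz
  have k1' := abs_le.1 k1
  have k2' := abs_le.1 k2
  have k3' := abs_le.1 k3
  have k4' := abs_le.1 k4
  have t1 := T_mul_cos (u := 1 - y1 z) (abs_le.2 ⟨by linarith, by linarith⟩)
  have t2 := T_mul_cos (u := x2 z) (abs_le.2 ⟨by linarith, by linarith⟩)
  have t3 := T_mul_cos (u := y2 z) (abs_le.2 ⟨by linarith, by linarith⟩)
  have t4 := T_mul_cos (u := 1 - x1 z) (abs_le.2 ⟨by linarith, by linarith⟩)
  have u1 := cs ((1 - y1 z) / 10)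
  have u2 := cs (x2 z / 10)
  have u3 := cs (y2 z / 10)
  have u4 := cs ((1 - x1 z) / 10)
  have q1 : cos ((1 - y1 z) / 10) * x3 z = sin ((1 - y1 z) / 10) * x1 z := by
    rw [r1, ← t1]; ring
  have q3 : cos (y2 z / 10) * x3 z = sin (y2 z / 10) * x2 z := by
    rw [r2, ← t3]; ring
  have q4 : cos ((1 - x1 z) / 10) * (-y3 z) = sin ((1 - x1 z) / 10) * y1 z := by
    rw [r3, ← t4]; ring
  have q6 : cos (x2 z / 10) * (-y3 z) = sin (x2 z / 10) * y2 z := by
    rw [r4, ← t2]; ring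
  have g1 : x1 (phiB 1 z) = x1 z := by
    rw [x1_B]; linear_combination (2 * sin ((1 - y1 z) / 10)) * q1 + x1 z * u1
  have g3 : x3 (phiB 1 z) = -x3 z := by
    rw [x3_B]; linear_combination (2 * cos ((1 - y1 z) / 10)) * q1 - x3 z * u1
  have g5 : y2 (phiB 1 z) = y2 z := by
    rw [y2_B]; linear_combination (2 * sin (x2 z / 10)) * q6 + y2 z * u2
  have g6 : y3 (phiB 1 z) = -y3 z := by
    rw [y3_B]; linear_combination (-2 * cos (x2 z / 10)) * q6 - y3 z * u2
  rw [Psi_one]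
  apply line_of_mom hz h4 (phiA_cone _ (phiB_cone _ hz))
  · simp only [phiA, phiB, E, U_L1_four, U_R2_four, U_L2_four, U_R1_four, h4]
  · rw [x1_phiA, g1]
  · rw [x2_A, g5, g3, x2_phiB]; linear_combination (-2 * sin (y2 z / 10)) * q3 - x2 z * u3
  · rw [x3_A, g5, g3, x2_phiB]; linear_combination (2 * cos (y2 z / 10)) * q3 - x3 z * u3
  · rw [y1_A, g1, g6, y1_phiB]; linear_combination (-2 * sin ((1 - x1 z) / 10)) * q4 - y1 z * u4
  · rw [y2_phiA, g5]
  · rw [y3_A, g1, g6, y1_phiB]; linear_combination (-2 * cos ((1 - x1 z) / 10)) * q4 - y3 z * u4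

lemma span_eq_of_smul {z w : V} {c : ℂ} (hz : z ∈ unitCone) (hw : w ∈ unitCone) (h : w = c • z) :
    Submodule.span ℂ {w} = Submodule.span ℂ {z} := by
  have hc : ‖c‖ = 1 := norm_one_of_cone hz (h ▸ hw)
  have hc0 : c ≠ 0 := by intro h0; rw [h0] at hc; simp at hc
  rw [h, Submodule.span_singleton_smul_eq (IsUnit.mk0 c hc0)]

lemma x2_eq_of_span {z w : V} (hz : z ∈ unitCone) (hw : w ∈ unitCone)
    (h : Submodule.span ℂ {w} = Submodule.span ℂ {z}) : x2 w = x2 z := by
  have : w ∈ Submodule.span ℂ {z} := h ▸ Submodule.mem_span_singleton_self w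
  obtain ⟨c, rfl⟩ := Submodule.mem_span_singleton.1 this
  exact x2_smul c (norm_one_of_cone hz hw) z

lemma ncard_fixed : (fixedLines lift).ncard = 3 := by
  obtain ⟨a, p, ha, hp, e, n⟩ := sym_exists
  have hp1 : p ≤ 1 := by nlinarith [sq_nonneg (p * T p), sq_nonneg a]
  obtain ⟨tp1, tp2⟩ := T_bd hp.le (by linarith)
  have hq : (p * T p) ^ 2 ≤ 1 / 50 := by
    have h0 : 0 ≤ p * T p := by nlinarith
    have h1 : p * T p ≤ 105 / 1000 := by nlinarith
    nlinarith
  obtain ⟨z0, c0, d0, a01, a02, a03, b01, b02, b03⟩ := exists_mom (a1 := 1) (a2 := 0) (a3 := 0)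
    (b1 := 1) (b2 := 0) (b3 := 0) (by norm_num) (by norm_num) (by norm_num)
  obtain ⟨z1, c1, d1, a11, a12, a13, b11, b12, b13⟩ := exists_mom (a1 := -a) (a2 := p)
    (a3 := -(p * T p)) (b1 := -a) (b2 := -p) (b3 := p * T p) (by linarith) (by linarith)
    (by nlinarith)
  obtain ⟨z2, c2, d2, a21, a22, a23, b21, b22, b23⟩ := exists_mom (a1 := -a) (a2 := -p)
    (a3 := -(p * T p)) (b1 := -a) (b2 := p) (b3 := p * T p) (by linarith) (by linarith)
    (by nlinarith)
  rw [Set.ncard_eq_three]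
  refine ⟨Submodule.span ℂ {z0}, Submodule.span ℂ {z1}, Submodule.span ℂ {z2}, ?_, ?_, ?_, ?_⟩
  · intro h; have := x2_eq_of_span c1 c0 h; linarith
  · intro h; have := x2_eq_of_span c2 c0 h; linarith
  · intro h; have := x2_eq_of_span c2 c1 h; linarith
  · ext ℓ
    simp only [fixedLines, Set.mem_ofPred_eq, Set.mem_insert_iff, Set.mem_singleton_iff]
    constructor
    · rintro ⟨z, hz, rfl, hmem⟩
      obtain ⟨c, hc⟩ := Submodule.mem_span_singleton.1 hmem
      have hc' : Psi (1, z) = c • z := hc.symm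
      have h4 := four_eq_zero hz hc'
      obtain ⟨sx, sy⟩ := mom_sphere hz h4
      rcases fixed_nec hz hc' with ⟨h1, h2⟩ | ⟨h1, h2, h3, h5, h6, h7⟩
      · left
        have p2 : x2 z = 0 := by nlinarith [sq_nonneg (x2 z), sq_nonneg (x3 z)]
        have p3 : x3 z = 0 := by nlinarith [sq_nonneg (x2 z), sq_nonneg (x3 z)]
        have p5 : y2 z = 0 := by nlinarith [sq_nonneg (y2 z), sq_nonneg (y3 z)]
        have p6 : y3 z = 0 := by nlinarith [sq_nonneg (y2 z), sq_nonneg (y3 z)]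
        obtain ⟨k, hk⟩ := line_of_mom c0 d0 hz h4 (by linarith) (by linarith) (by linarith)
          (by linarith) (by linarith) (by linarith)
        exact span_eq_of_smul c0 hz hk
      · right
        obtain ⟨r1, r2, r3, r4, r5⟩ := classify (y3 := -y3 z) ha hp e n sx (by linarith) h1 h2 h3
          h5 h6 h7
        rcases r5 with ⟨r5, r6⟩ | ⟨r5, r6⟩
        · left
          obtain ⟨k, hk⟩ := line_of_mom c1 d1 hz h4 (by linarith) (by linarith) (by linarith)
            (by linarith) (by linarith) (by linarith)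
          exact span_eq_of_smul c1 hz hk
        · right
          obtain ⟨k, hk⟩ := line_of_mom c2 d2 hz h4 (by linarith) (by linarith) (by linarith)
            (by linarith) (by linarith) (by linarith)
          exact span_eq_of_smul c2 hz hk
    · have fin : ∀ z ∈ unitCone, (∃ c : ℂ, Psi (1, z) = c • z) →
          ∃ z' ∈ unitCone, Submodule.span ℂ {z} = Submodule.span ℂ {z'} ∧
            lift.Ψ (1, z') ∈ Submodule.span ℂ {z} := by
        rintro z hz ⟨c, hc⟩
        exact ⟨z, hz, rfl, Submodule.mem_span_singleton.2 ⟨c, hc.symm⟩⟩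
      have ee : 1 - -a = 1 + a := by ring
      rintro (rfl | rfl | rfl)
      · apply fin _ c0
        apply fixed_suf c0 d0
        · rw [a03, b01]; simp [T_zero]
        · rw [a03, a02]; simp
        · rw [b03, a01]; simp [T_zero]
        · rw [b03, b02]; simp
      · apply fin _ c1
        apply fixed_suf c1 d1
        · rw [a13, a11, b11, ee]; linarith
        · rw [a13, a12, b12, T_neg]; ring
        · rw [b13, a11, b11, ee]; linarith
        · rw [b13, a12, b12]; ring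
      · apply fin _ c2
        apply fixed_suf c2 d2
        · rw [a23, a21, b21, ee]; linarith
        · rw [a23, a22, b22]; ring
        · rw [b23, a21, b21, ee]; linarith
        · rw [b23, a22, b22, T_neg]; ring

lemma degenerate : HasDegenerateFixedPoint lift := by
  obtain ⟨k, hk0, hk⟩ : ∃ k : ℝ, 0 < k ∧ k ^ 2 = 1 / 2 :=
    ⟨Real.sqrt (1 / 2), by positivity, Real.sq_sqrt (by norm_num)⟩
  let z : V := ![⟨k, 0⟩, ⟨0, k⟩, 0, 0, 0]
  let w : V := ![0, 0, ⟨k, 0⟩, ⟨0, -k⟩, 0]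
  have hz : z ∈ unitCone := by
    rw [mem_cone_iff]
    constructor
    · simp [ip, z]; linarith
    · apply Complex.ext <;> simp [z, pow_two]
  have X1 : ∀ s : ℝ, x1 (z + s • w) = 1 - s ^ 2 := by
    intro s; simp [x1, m, z, w]; linear_combination (2 - 2 * s ^ 2) * hk
  have X2 : ∀ s : ℝ, x2 (z + s • w) = 0 := by
    intro s; simp [x2, m, z, w]
  have X3 : ∀ s : ℝ, x3 (z + s • w) = -2 * s := by
    intro s; simp [x3, m, z, w]; linear_combination (-4 * s) * hk
  have Y1 : ∀ s : ℝ, y1 (z + s • w) = 1 + s ^ 2 := by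
    intro s; simp [y1, m, z, w]; linear_combination (2 + 2 * s ^ 2) * hk
  have Y2 : ∀ s : ℝ, y2 (z + s • w) = 0 := by
    intro s; simp [y2, m, z, w]
  have Y3 : ∀ s : ℝ, y3 (z + s • w) = 0 := by
    intro s; simp [y3, m, z, w]
  let β : ℝ → ℝ := fun s => -s ^ 2 / 10
  let α : ℝ → ℝ := fun s => ((cos (β s) ^ 2 - sin (β s) ^ 2) * (1 - s ^ 2) +
    2 * sin (β s) * cos (β s) * (-2 * s) - 1) / 10
  have hB : ∀ s : ℝ, phiB 1 (z + s • w) = E L2 (β s) (z + s • w) := by
    intro s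
    have : (1 - (1 + s ^ 2)) / 10 = β s := by simp only [β]; ring
    simp only [phiB, b1, b2, X2, Y1, one_mul, this]
    simp [E, U_one]
  have hPsi : ∀ s : ℝ, Psi (1, z + s • w) = E L1 π (E R2 (α s) (E L2 (β s) (z + s • w))) := by
    intro s
    rw [Psi_one, hB]
    simp only [phiA, a1, a2, one_mul, E, y2_L2 (cs _), x1_L2, Y2, X1, X3, zero_div, add_zero, α]
  have β0 : β 0 = 0 := by simp [β]
  have α0 : α 0 = 0 := by simp [α, β0]
  have dβ : HasDerivAt β 0 0 := by
    refine (((hasDerivAt_pow 2 (0 : ℝ)).neg).div_const 10).congr_deriv ?_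
    simp
  have dα : HasDerivAt α 0 0 := by
    refine ((((((dβ.cos.pow 2).sub (dβ.sin.pow 2)).mul
      ((hasDerivAt_pow 2 (0 : ℝ)).const_sub 1)).add (((dβ.sin.const_mul 2).mul dβ.cos).mul
      ((hasDerivAt_id (0 : ℝ)).const_mul (-2)))).sub_const 1).div_const 10).congr_deriv ?_
    simp [β0]
  have dl : HasDerivAt (fun s : ℝ => z + s • w) w 0 := by
    simpa using ((hasDerivAt_id (0 : ℝ)).smul_const w).const_add z
  have dd := E_hasDerivAt L1 (hasDerivAt_const (0 : ℝ) π) (E_hasDerivAt R2 dα (E_hasDerivAt L2 dβ dl))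
  simp only [zero_smul, zero_add, β0, α0] at dd
  have E0 : ∀ (J : V →L[ℝ] V) (u : V), E J 0 u = u := by intro J u; simp [E, U_one]
  rw [E0, E0] at dd
  refine ⟨z, hz, -1, ?_, w, ?_, ?_, 0, ?_⟩
  · have := hPsi 0
    simp only [zero_smul, add_zero, β0, α0, E0] at this
    change Psi (1, z) = _
    rw [this]
    simp only [E, U_L1, cos_pi, sin_pi]
    ext i; fin_cases i <;> simp [z]
  · constructor
    · simp [herm, Fin.sum_univ_five, z, w]
    · simp [Fin.sum_univ_five, z, w]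
  · intro r hr
    have := congrArg Complex.re (congrFun hr 2)
    simp [z, w] at this
    linarith
  · change fderiv ℝ (fun x : V => Psi (1, x)) z w = _
    rw [fderiv_line (d := E L1 π w)]
    · simp only [E, U_L1, cos_pi, sin_pi]
      ext i; fin_cases i <;> simp [w]
    · exact ((Psi_contDiff.comp (contDiff_const.prodMk contDiff_id)).differentiable (by simp)) z
    · simp only [hPsi]
      exact dd

end Crest.Agent.R205
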